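import Vale.Agent.P220.R2.H57.Defs

/-!
# P220: closed exact Lagrangians and the momentum of a vector field
-/

open Set
open scoped ContDiff

namespace Vale.Agent.P220.R2.H57

variable {E : Type} [NormedAddCommGroup E] [InnerProductSpace ℝ E]

/-- `L` is a closed (compact, without boundary), nonempty exact Lagrangian submanifold of `T*Q`,
where `dim Q = n`. -/
structure IsClosedExactLagrangian (n : ℕ) (Q : Set E) (L : Set (E × E)) : Prop where
  /-- a submanifold of dimension `n` -/
  mfd : IsSubmanifold n L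
  /-- compact -/
  compact : IsCompact L
  /-- nonempty -/
  nonempty : L.Nonempty
  /-- in the cotangent bundle -/
  sub : L ⊆ Cot Q
  /-- the canonical one-form is exact on `L` -/
  exact : ∃ f : E × E → ℝ, ContDiff ℝ ∞ f ∧ ∀ z ∈ L, ∀ v ∈ Tan L z, fderiv ℝ f z v = lam z v

/-- `X` is a vector field on `Q`, and the part `L` of `T*Q` stays embedded in `Q × ℝ` when all
momenta but the momentum `p(X)` are forgotten. -/
structure IsMomentumEmbedded (Q : Set E) (L : Set (E × E)) (X : E → E) : Prop where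
  /-- `X` is smooth -/
  smooth : ContDiff ℝ ∞ X
  /-- `X` is tangent to `Q` -/
  tangent : ∀ q ∈ Q, X q ∈ Tan Q q
  /-- `(q, p) ↦ (q, p(X))` is injective on `L` -/
  inj : ∀ z ∈ L, ∀ z' ∈ L, z.1 = z'.1 → inner ℝ z.2 (X z.1) = inner ℝ z'.2 (X z.1) → z = z'
  /-- and an immersion of `L` -/
  imm : ∀ z ∈ L, ∀ v ∈ Tan L z, v.1 = 0 → inner ℝ v.2 (X z.1) = 0 → v = 0

end Vale.Agent.P220.R2.H57
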