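import Vale.Agent.P220.R2.H481.Arc5

/-!
Two separated curves with bounded action cannot both cross a long strip.
-/

open Set Filter Topology

namespace Vale.Agent.P220.R2.H57

theorem exists_sub_arc {T : ℝ → ℝ} (hT : Continuous T) {a b τ₁ τ₂ : ℝ} (hab : a ≤ b)
    (hτ : τ₁ < τ₂) (ha : T a ≤ τ₁) (hb : τ₂ ≤ T b) : ∃ a' b', a ≤ a' ∧ a' < b' ∧ b' ≤ b ∧
      T a' = τ₁ ∧ T b' = τ₂ ∧ ∀ t ∈ Ioo a' b', T t ∈ Ioo τ₁ τ₂ := by
  set S : Set ℝ := Icc a b ∩ {t | τ₂ ≤ T t} with hS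
  have hSc : IsCompact S := isCompact_Icc.inter_right (isClosed_le continuous_const hT)
  have hSne : S.Nonempty := ⟨b, ⟨hab, le_refl b⟩, hb⟩
  have hb' := hSc.sInf_mem hSne
  set b' := sInf S with hb'def
  have hlt : ∀ t, a ≤ t → t < b' → T t < τ₂ := by
    intro t ht htb
    by_contra hcon
    exact absurd (csInf_le hSc.bddBelow (⟨⟨ht, htb.le.trans hb'.1.2⟩, not_lt.1 hcon⟩ : t ∈ S))
      (not_le.2 htb)
  have hTb : T b' = τ₂ := by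
    refine le_antisymm ?_ hb'.2
    by_contra hcon
    obtain ⟨t, ht, htT⟩ := intermediate_value_Icc hb'.1.1 hT.continuousOn
      (⟨ha.trans hτ.le, (not_le.1 hcon).le⟩ : τ₂ ∈ Icc (T a) (T b'))
    rcases eq_or_lt_of_le ht.2 with h | h
    · rw [h] at htT
      rw [htT] at hcon
      exact hcon (le_refl _)
    · exact absurd (hlt t ht.1 h) (by rw [htT]; exact lt_irrefl _)
  set S' : Set ℝ := Icc a b' ∩ {t | T t ≤ τ₁} with hS'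
  have hSc' : IsCompact S' := isCompact_Icc.inter_right (isClosed_le hT continuous_const)
  have hSne' : S'.Nonempty := ⟨a, ⟨le_refl a, hb'.1.1⟩, ha⟩
  have ha' := hSc'.sSup_mem hSne'
  set a' := sSup S' with ha'def
  have hgt : ∀ t, a' < t → t ≤ b' → τ₁ < T t := by
    intro t ht htb
    by_contra hcon
    exact absurd (le_csSup hSc'.bddAbove (⟨⟨ha'.1.1.trans ht.le, htb⟩, not_lt.1 hcon⟩ : t ∈ S'))
      (not_le.2 ht)
  have hTa : T a' = τ₁ := by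
    refine le_antisymm ha'.2 ?_
    by_contra hcon
    obtain ⟨t, ht, htT⟩ := intermediate_value_Icc ha'.1.2 hT.continuousOn
      (⟨(not_le.1 hcon).le, by rw [hTb]; exact hτ.le⟩ : τ₁ ∈ Icc (T a') (T b'))
    rcases eq_or_lt_of_le ht.1 with h | h
    · rw [← h] at htT
      rw [htT] at hcon
      exact hcon (le_refl _)
    · exact absurd (hgt t h ht.2) (by rw [htT]; exact lt_irrefl _)
  have hab' : a' < b' := by
    rcases eq_or_lt_of_le ha'.1.2 with h | h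
    · exfalso
      rw [h, hTb] at hTa
      linarith
    · exact h
  exact ⟨a', b', ha'.1.1, hab', hb'.1.2, hTa, hTb, fun t ht =>
    ⟨hgt t ht.1 ht.2.le, hlt t (ha'.1.1.trans ht.1.le) ht.2⟩⟩

theorem strip_bound_aux {c₁ c₁' c₂ c₂' : ℝ → ℂ} (h₁ : ∀ t, HasDerivAt c₁ (c₁' t) t)
    (h₂ : ∀ t, HasDerivAt c₂ (c₂' t) t) (k₁ : Continuous c₁') (k₂ : Continuous c₂')
    (r₁ : ∀ t, c₁' t ≠ 0) (r₂ : ∀ t, c₂' t ≠ 0) (i₁ : Function.Injective c₁)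
    (i₂ : Function.Injective c₂) {F ε τ₁ τ₂ : ℝ} (hε : 0 < ε)
    (F₁ : ∀ a b, |∫ t in a..b, (c₁ t).im * (c₁' t).re| ≤ F)
    (F₂ : ∀ a b, |∫ t in a..b, (c₂ t).im * (c₂' t).re| ≤ F) (hτ : τ₁ < τ₂) {a₁ b₁ a₂ b₂ : ℝ}
    (hab₁ : a₁ ≤ b₁) (hab₂ : a₂ ≤ b₂) (s₁ : (c₁ a₁).re ≤ τ₁) (e₁ : τ₂ ≤ (c₁ b₁).re)
    (s₂ : (c₂ a₂).re ≤ τ₁) (e₂ : τ₂ ≤ (c₂ b₂).re)
    (sep : ∀ s ∈ Icc a₁ b₁, ∀ t ∈ Icc a₂ b₂, (c₁ s).re = (c₂ t).re → ε ≤ |(c₁ s).im - (c₂ t).im|) :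
    ε * (τ₂ - τ₁) ≤ 2 * F := by
  have hc₁ : Continuous fun t => (c₁ t).re :=
    Complex.continuous_re.comp (continuous_iff_continuousAt.2 fun t => (h₁ t).continuousAt)
  have hc₂ : Continuous fun t => (c₂ t).re :=
    Complex.continuous_re.comp (continuous_iff_continuousAt.2 fun t => (h₂ t).continuousAt)
  obtain ⟨a₁', b₁', ha₁, hlt₁, hb₁, hsa₁, hsb₁, hm₁⟩ := exists_sub_arc hc₁ hab₁ hτ s₁ e₁
  obtain ⟨a₂', b₂', ha₂, hlt₂, hb₂, hsa₂, hsb₂, hm₂⟩ := exists_sub_arc hc₂ hab₂ hτ s₂ e₂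
  have h := H481.two_arcs h₁ h₂ k₁ k₂ r₁ r₂ hε hτ hlt₁ hlt₂ i₁.injOn i₂.injOn hsa₁ hsb₁ hsa₂ hsb₂
    hm₁ hm₂ (fun s hs t ht => sep s ⟨ha₁.trans hs.1, hs.2.trans hb₁⟩ t
      ⟨ha₂.trans ht.1, ht.2.trans hb₂⟩)
  have h3 := abs_sub (∫ t in a₁'..b₁', (c₁ t).im * (c₁' t).re)
    (∫ t in a₂'..b₂', (c₂ t).im * (c₂' t).re)
  have h4 := F₁ a₁' b₁'
  have h5 := F₂ a₂' b₂'
  linarith

theorem rev_deriv {c c' : ℝ → ℂ} (h : ∀ t, HasDerivAt c (c' t) t) (t : ℝ) :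
    HasDerivAt (fun t => c (-t)) (-c' (-t)) t := by
  have h1 := (h (-t)).scomp t (hasDerivAt_neg t)
  simpa [Function.comp_def] using h1

theorem rev_bound {c c' : ℝ → ℂ} {F : ℝ} (hF : ∀ a b, |∫ t in a..b, (c t).im * (c' t).re| ≤ F)
    (a b : ℝ) : |∫ t in a..b, (c (-t)).im * (-c' (-t)).re| ≤ F := by
  have h1 : (∫ t in a..b, (c (-t)).im * (-c' (-t)).re) =
      -∫ t in -b..-a, (c t).im * (c' t).re := by
    rw [← intervalIntegral.integral_comp_neg (fun t => (c t).im * (c' t).re),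
      ← intervalIntegral.integral_neg]
    refine intervalIntegral.integral_congr fun t _ => ?_
    simp
  rw [h1, abs_neg]
  exact hF _ _

theorem strip_bound {c₁ c₁' c₂ c₂' : ℝ → ℂ} (h₁ : ∀ t, HasDerivAt c₁ (c₁' t) t)
    (h₂ : ∀ t, HasDerivAt c₂ (c₂' t) t) (k₁ : Continuous c₁') (k₂ : Continuous c₂')
    (r₁ : ∀ t, c₁' t ≠ 0) (r₂ : ∀ t, c₂' t ≠ 0) (i₁ : Function.Injective c₁)
    (i₂ : Function.Injective c₂) {F ε τ₁ τ₂ : ℝ} (hε : 0 < ε)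
    (F₁ : ∀ a b, |∫ t in a..b, (c₁ t).im * (c₁' t).re| ≤ F)
    (F₂ : ∀ a b, |∫ t in a..b, (c₂ t).im * (c₂' t).re| ≤ F) (hτ : τ₁ < τ₂) {a₁ b₁ a₂ b₂ : ℝ}
    (s₁ : (c₁ a₁).re ≤ τ₁) (e₁ : τ₂ ≤ (c₁ b₁).re) (s₂ : (c₂ a₂).re ≤ τ₁) (e₂ : τ₂ ≤ (c₂ b₂).re)
    (sep : ∀ s ∈ uIcc a₁ b₁, ∀ t ∈ uIcc a₂ b₂, (c₁ s).re = (c₂ t).re →
      ε ≤ |(c₁ s).im - (c₂ t).im|) :
    ε * (τ₂ - τ₁) ≤ 2 * F := by
  have hneg : ∀ {a b t : ℝ}, b ≤ a → t ∈ Icc (-a) (-b) → -t ∈ uIcc a b := by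
    intro a b t hab ht
    rw [uIcc_of_ge hab]
    exact ⟨by linarith [ht.2], by linarith [ht.1]⟩
  have hinj : ∀ {c : ℝ → ℂ}, Function.Injective c → Function.Injective fun t => c (-t) := by
    intro c hc s t hst
    exact neg_injective (hc hst)
  rcases le_total a₁ b₁ with hab₁ | hab₁ <;> rcases le_total a₂ b₂ with hab₂ | hab₂
  · exact strip_bound_aux h₁ h₂ k₁ k₂ r₁ r₂ i₁ i₂ hε F₁ F₂ hτ hab₁ hab₂ s₁ e₁ s₂ e₂
      (fun s hs t ht => sep s (by rw [uIcc_of_le hab₁]; exact hs) t (by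
        rw [uIcc_of_le hab₂]; exact ht))
  · exact strip_bound_aux (c₂ := fun t => c₂ (-t)) (c₂' := fun t => -c₂' (-t)) (a₂ := -a₂)
      (b₂ := -b₂) h₁ (rev_deriv h₂) k₁ (k₂.comp continuous_neg).neg r₁
      (fun t => neg_ne_zero.2 (r₂ _)) i₁ (hinj i₂) hε F₁ (rev_bound F₂) hτ hab₁ (neg_le_neg hab₂) s₁ e₁
      (by rw [neg_neg]; exact s₂) (by rw [neg_neg]; exact e₂)
      (fun s hs t ht => sep s (by rw [uIcc_of_le hab₁]; exact hs) (-t) (hneg hab₂ ht))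
  · exact strip_bound_aux (c₁ := fun t => c₁ (-t)) (c₁' := fun t => -c₁' (-t)) (a₁ := -a₁)
      (b₁ := -b₁) (rev_deriv h₁) h₂ (k₁.comp continuous_neg).neg k₂
      (fun t => neg_ne_zero.2 (r₁ _)) r₂ (hinj i₁) i₂ hε (rev_bound F₁) F₂ hτ (neg_le_neg hab₁) hab₂
      (by rw [neg_neg]; exact s₁) (by rw [neg_neg]; exact e₁) s₂ e₂
      (fun s hs t ht => sep (-s) (hneg hab₁ hs) t (by rw [uIcc_of_le hab₂]; exact ht))
  · exact strip_bound_aux (c₁ := fun t => c₁ (-t)) (c₁' := fun t => -c₁' (-t)) (a₁ := -a₁)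
      (b₁ := -b₁) (c₂ := fun t => c₂ (-t)) (c₂' := fun t => -c₂' (-t)) (a₂ := -a₂)
      (b₂ := -b₂) (rev_deriv h₁) (rev_deriv h₂) (k₁.comp continuous_neg).neg
      (k₂.comp continuous_neg).neg (fun t => neg_ne_zero.2 (r₁ _)) (fun t => neg_ne_zero.2 (r₂ _))
      (hinj i₁) (hinj i₂) hε (rev_bound F₁) (rev_bound F₂) hτ (neg_le_neg hab₁) (neg_le_neg hab₂)
      (by rw [neg_neg]; exact s₁) (by rw [neg_neg]; exact e₁)
      (by rw [neg_neg]; exact s₂) (by rw [neg_neg]; exact e₂)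
      (fun s hs t ht => sep (-s) (hneg hab₁ hs) (-t) (hneg hab₂ ht))

end Vale.Agent.P220.R2.H57
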