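import Vale.Agent.P220.R2.H57.B.Loop
import Vale.Agent.P220.R2.H57.B.Strip

/-!
Exactness excludes long returns of the leafwise curves: orientation and drift.
-/

open Set Filter Topology
open scoped ContDiff Manifold

set_option linter.unusedSectionVars false

namespace Vale.Agent.P220.R2.H57

variable {E : Type} [NormedAddCommGroup E] [InnerProductSpace ℝ E] [FiniteDimensional ℝ E]

namespace Base

namespace HatFlow

variable {D : Base E} (H : D.HatFlow)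

theorem x_injective {k : (E × E) × (ℝ × ℝ)} (hk : k ∈ D.Hat) : Function.Injective (H.x k) := by
  intro s t h
  obtain ⟨h1, h2⟩ := H.x_eq hk h
  rcases lt_trichotomy s t with h3 | h3 | h3
  · exact absurd (loop_of_eq hk h3 h1 h2) (H.no_loop k)
  · exact h3
  · exact absurd (loop_of_eq hk h3 h1.symm h2.symm) (H.no_loop k)

theorem T_lip {k : (E × E) × (ℝ × ℝ)} (hk : k ∈ D.Hat) (s t : ℝ) :
    |H.T t k - H.T s k| ≤ |t - s| := by
  have h1 := Convex.norm_image_sub_le_of_norm_hasDerivWithin_le (f := fun s => H.T s k)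
    (f' := fun σ => (H.Φ σ k).2.1) (s := univ) (C := 1)
    (fun σ _ => (H.hasDerivAt_T σ k).hasDerivWithinAt) (fun σ _ => abs_fst_le (H.mem k hk σ))
    convex_univ (mem_univ s) (mem_univ t)
  simpa [Real.norm_eq_abs] using h1

/-- Points of `L` over the same point of the base at nearly the same height lie on the same short
leafwise arc. -/
theorem exists_sep : ∃ ε > 0, ∀ k ∈ D.Hat, ∀ k' ∈ D.Hat, k'.1.1 = k.1.1 →
    |D.h k.1 - D.h k'.1| < ε → ∃ σ, |σ| < 1 ∧ (H.Φ σ k).1 = k'.1 ∧ H.T σ k = 0 := by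
  by_contra hcon
  push Not at hcon
  have h1 : ∀ n : ℕ, ∃ k ∈ D.Hat, ∃ k' ∈ D.Hat, k'.1.1 = k.1.1 ∧
      |D.h k.1 - D.h k'.1| < 1 / ((n : ℝ) + 1) ∧ ∀ σ, |σ| < 1 → (H.Φ σ k).1 = k'.1 →
        H.T σ k ≠ 0 := by
    intro n
    obtain ⟨k, hk, k', hk', h1, h2, h3⟩ := hcon (1 / ((n : ℝ) + 1)) (by positivity)
    exact ⟨k, hk, k', hk', h1, h2, h3⟩
  choose k hk k' hk' hbase hh hne using h1
  have hcomp : IsCompact (D.Hat ×ˢ D.Hat) := D.Hat_compact.prod D.Hat_compact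
  obtain ⟨⟨k₀, k₀'⟩, ⟨hk₀, hk₀'⟩, ψ, hψ, hlim⟩ := hcomp.tendsto_subseq
    (x := fun n : ℕ => (k n, k' n)) (fun n => ⟨hk n, hk' n⟩)
  simp only at hk₀ hk₀'
  have hl1 : Tendsto (fun n => k (ψ n)) atTop (𝓝 k₀) := (continuous_fst.tendsto _).comp hlim
  have hl2 : Tendsto (fun n => k' (ψ n)) atTop (𝓝 k₀') := (continuous_snd.tendsto _).comp hlim
  have hcb : Continuous fun k : (E × E) × (ℝ × ℝ) => k.1.1 := continuous_fst.comp continuous_fst
  have hch : Continuous fun k : (E × E) × (ℝ × ℝ) => D.h k.1 :=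
    D.h_smooth.continuous.comp continuous_fst
  have hb0 : k₀'.1.1 = k₀.1.1 := by
    refine tendsto_nhds_unique ((hcb.tendsto _).comp hl2) (((hcb.tendsto _).comp hl1).congr ?_)
    intro n
    exact (hbase (ψ n)).symm
  have hh0 : D.h k₀.1 = D.h k₀'.1 := by
    have h2 : Tendsto (fun n => |D.h (k (ψ n)).1 - D.h (k' (ψ n)).1|) atTop
        (𝓝 |D.h k₀.1 - D.h k₀'.1|) :=
      (((hch.tendsto _).comp hl1).sub ((hch.tendsto _).comp hl2)).abs
    have h3 : Tendsto (fun n => 1 / (((ψ n : ℕ) : ℝ) + 1)) atTop (𝓝 0) :=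
      tendsto_one_div_add_atTop_nhds_zero_nat.comp hψ.tendsto_atTop
    have h4 : |D.h k₀.1 - D.h k₀'.1| ≤ 0 :=
      le_of_tendsto_of_tendsto' h2 h3 fun n => (hh (ψ n)).le
    exact sub_eq_zero.1 (abs_eq_zero.1 (le_antisymm h4 (abs_nonneg _)))
  have h00 : k₀'.1 = k₀.1 := D.h_inj hk₀'.1 hk₀.1 hb0 hh0.symm
  obtain ⟨O, hO, ε, hε, hlu⟩ := H.local_unique hk₀ (show (0 : ℝ) < 1 by norm_num)
  have hO1 : ∀ᶠ n in atTop, k (ψ n) ∈ O := hl1.eventually_mem hO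
  rcases D.Hat_pm hk₀ hk₀' h00 with h | h
  · have hO2 : ∀ᶠ n in atTop, k' (ψ n) ∈ O := by
      rw [h] at hl2
      exact hl2.eventually_mem hO
    obtain ⟨n, hn1, hn2⟩ := (hO1.and hO2).exists
    obtain ⟨σ, h5, h6, h7⟩ := hlu _ hn1 _ hn2 (hk _) (hk' _) 0 (by rw [abs_zero]; exact hε)
      (by rw [D.hφ.zero]; exact hbase _)
    exact hne (ψ n) σ h5 (by rw [h6]) h7
  · have hO2 : ∀ᶠ n in atTop, ((k' (ψ n)).1, -(k' (ψ n)).2) ∈ O := by
      have h2 : Continuous fun k : (E × E) × (ℝ × ℝ) => (k.1, -k.2) := by fun_prop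
      have h3 := (h2.tendsto _).comp hl2
      rw [h, neg_neg] at h3
      exact h3.eventually_mem hO
    obtain ⟨n, hn1, hn2⟩ := (hO1.and hO2).exists
    obtain ⟨σ, h5, h6, h7⟩ := hlu _ hn1 _ hn2 (hk _) (D.Hat_neg (hk' _)) 0
      (by rw [abs_zero]; exact hε) (by rw [D.hφ.zero]; exact hbase _)
    exact hne (ψ n) σ h5 (by rw [h6]) h7

theorem exists_act : ∃ F : ℝ, ∀ k ∈ D.Hat, ∀ a b : ℝ,
    |∫ t in a..b, (H.x k t).im * (H.x' k t).re| ≤ F := by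
  obtain ⟨F, hF⟩ := (D.cL.image D.hf.continuous).isBounded.exists_norm_le
  have hF' : ∀ z ∈ D.L, |D.f z| ≤ F := fun z hz => hF _ ⟨z, hz, rfl⟩
  refine ⟨2 * F, fun k hk a b => ?_⟩
  have h3 : ∀ t, (H.x k t).im * (H.x' k t).re = D.h (H.Φ t k).1 * (H.Φ t k).2.1 := fun t => rfl
  simp_rw [h3]
  rw [intervalIntegral.integral_eq_sub_of_hasDerivAt (fun t _ => H.hasDerivAt_f hk t)]
  · have h4 := hF' _ (H.mem k hk a).1
    have h5 := hF' _ (H.mem k hk b).1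
    have h6 := abs_sub (D.f (H.Φ b k).1) (D.f (H.Φ a k).1)
    linarith
  · have h4 : Continuous fun s : ℝ => H.Φ s k := H.cont.comp (continuous_id.prodMk continuous_const)
    exact ((D.h_smooth.continuous.comp (continuous_fst.comp h4)).mul (H.cont_a k)).intervalIntegrable _ _

/-- Two separated leafwise arcs in the same leaf do not both cross a long strip. -/
theorem cross {ε F : ℝ} (hε : 0 < ε) (hsep : ∀ k ∈ D.Hat, ∀ k' ∈ D.Hat, k'.1.1 = k.1.1 →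
      |D.h k.1 - D.h k'.1| < ε → ∃ σ, |σ| < 1 ∧ (H.Φ σ k).1 = k'.1 ∧ H.T σ k = 0)
    (hF : ∀ k ∈ D.Hat, ∀ a b : ℝ, |∫ t in a..b, (H.x k t).im * (H.x' k t).re| ≤ F)
    {k₁ k₂ : (E × E) × (ℝ × ℝ)} (hk₁ : k₁ ∈ D.Hat) (hk₂ : k₂ ∈ D.Hat) {t₀ : ℝ}
    (h : k₂.1.1 = D.φ t₀ k₁.1.1) {τ₁ τ₂ : ℝ} (hτ : τ₁ < τ₂) {a₁ b₁ a₂ b₂ : ℝ}
    (s₁ : H.T a₁ k₁ ≤ τ₁) (e₁ : τ₂ ≤ H.T b₁ k₁) (s₂ : t₀ + H.T a₂ k₂ ≤ τ₁)
    (e₂ : τ₂ ≤ t₀ + H.T b₂ k₂)
    (sep : ∀ s ∈ uIcc a₁ b₁, ∀ t ∈ uIcc a₂ b₂, ∀ σ, |σ| < 1 →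
      (H.Φ (σ + s) k₁).1 = (H.Φ t k₂).1 → H.T (σ + s) k₁ = t₀ + H.T t k₂ → False) :
    ε * (τ₂ - τ₁) ≤ 2 * F := by
  refine strip_bound (c₁ := H.x k₁) (c₁' := H.x' k₁) (c₂ := fun t => (t₀ : ℂ) + H.x k₂ t)
    (c₂' := H.x' k₂) (H.hasDerivAt_x hk₁) (fun t => (H.hasDerivAt_x hk₂ t).const_add _)
    (H.cont_x' k₁) (H.cont_x' k₂) (H.x'_ne hk₁) (H.x'_ne hk₂) (H.x_injective hk₁)
    (fun s t hst => H.x_injective hk₂ (add_left_cancel hst)) hε (hF k₁ hk₁) (fun a b => ?_) hτ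
    (a₁ := a₁) (b₁ := b₁) (a₂ := a₂) (b₂ := b₂) s₁ e₁ ?_ ?_ ?_
  · simpa using hF k₂ hk₂ a b
  · simpa [x] using s₂
  · simpa [x] using e₂
  · intro s hs t ht hre
    by_contra hcon
    have hre' : H.T s k₁ = t₀ + H.T t k₂ := by simpa [x] using hre
    have hcon' : |D.h (H.Φ s k₁).1 - D.h (H.Φ t k₂).1| < ε := by
      simpa [x] using not_le.1 hcon
    obtain ⟨σ, hσ, h1, h2⟩ := hsep _ (H.mem k₁ hk₁ s) _ (H.mem k₂ hk₂ t) (by
      rw [H.base hk₁, H.base hk₂, h, ← D.hφ.add, hre', add_comm]) hcon'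
    refine sep s hs t ht σ hσ ?_ ?_
    · rw [H.add, h1]
    · rw [H.T_add, h2, add_zero, hre']

/-- No leafwise curve makes a long return. -/
theorem exists_nb : ∃ B > 0, ∀ k ∈ D.Hat, ∀ a b c : ℝ, a ≤ b → b ≤ c →
    ¬(B ≤ H.T b k - H.T a k ∧ B ≤ H.T b k - H.T c k) ∧
      ¬(B ≤ H.T a k - H.T b k ∧ B ≤ H.T c k - H.T b k) := by
  obtain ⟨ε, hε, hsep⟩ := H.exists_sep
  obtain ⟨F, hF⟩ := H.exists_act
  set B : ℝ := 2 * |F| / ε + 2 with hB
  have hBpos : 2 ≤ B := by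
    have : 0 ≤ 2 * |F| / ε := by positivity
    linarith
  have hBF : 2 * F < ε * (B - 1) := by
    have h1 : ε * (B - 1) = 2 * |F| + ε := by
      rw [hB]
      field_simp
      ring
    rw [h1]
    have := le_abs_self F
    linarith
  refine ⟨B, by linarith, fun k hk a b c hab hbc => ⟨?_, ?_⟩⟩
  · rintro ⟨h1, h2⟩
    have hc := H.cont_Tk k
    obtain ⟨b₁, hb₁, hb₁'⟩ := intermediate_value_Icc hab hc.continuousOn
      (⟨by linarith, by linarith⟩ : H.T b k - 1 ∈ Icc (H.T a k) (H.T b k))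
    obtain ⟨b₂, hb₂, hb₂'⟩ := intermediate_value_Icc' hbc hc.continuousOn
      (⟨by linarith, by linarith⟩ : H.T b k - 1 ∈ Icc (H.T c k) (H.T b k))
    have hb₁'' : H.T b₁ k = H.T b k - 1 := hb₁'
    have hb₂'' : H.T b₂ k = H.T b k - 1 := hb₂'
    have hd1 : 1 ≤ b - b₁ := by
      have := H.T_lip hk b₁ b
      rw [hb₁'', abs_of_nonneg (sub_nonneg.2 hb₁.2)] at this
      rw [abs_of_nonneg (by linarith)] at this
      linarith
    have hd2 : 1 ≤ b₂ - b := by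
      have := H.T_lip hk b b₂
      rw [hb₂'', abs_of_nonneg (sub_nonneg.2 hb₂.1)] at this
      rw [abs_of_nonpos (by linarith)] at this
      linarith
    have h3 := H.cross hε hsep hF hk hk (t₀ := 0) (by rw [D.hφ.zero])
      (show H.T b k - B < H.T b k - 1 by linarith) (a₁ := a) (b₁ := b₁) (a₂ := c) (b₂ := b₂)
      (by linarith) (by linarith) (by linarith) (by linarith) (fun s hs t ht σ hσ he hT => ?_)
    · have : H.T b k - 1 - (H.T b k - B) = B - 1 := by ring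
      rw [this] at h3
      linarith
    · rw [uIcc_of_le hb₁.1] at hs
      rw [uIcc_of_ge hb₂.2] at ht
      have h4 : H.x k (σ + s) = H.x k t := by
        simp only [x, he, hT, zero_add]
      have h5 := H.x_injective hk h4
      have := (abs_lt.1 hσ).2
      linarith [hs.2, ht.1]
  · rintro ⟨h1, h2⟩
    have hc := H.cont_Tk k
    obtain ⟨b₁, hb₁, hb₁'⟩ := intermediate_value_Icc' hab hc.continuousOn
      (⟨by linarith, by linarith⟩ : H.T b k + 1 ∈ Icc (H.T b k) (H.T a k))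
    obtain ⟨b₂, hb₂, hb₂'⟩ := intermediate_value_Icc hbc hc.continuousOn
      (⟨by linarith, by linarith⟩ : H.T b k + 1 ∈ Icc (H.T b k) (H.T c k))
    have hb₁'' : H.T b₁ k = H.T b k + 1 := hb₁'
    have hb₂'' : H.T b₂ k = H.T b k + 1 := hb₂'
    have hd1 : 1 ≤ b - b₁ := by
      have := H.T_lip hk b₁ b
      rw [hb₁'', abs_of_nonneg (sub_nonneg.2 hb₁.2)] at this
      rw [abs_of_nonpos (by linarith)] at this
      linarith
    have hd2 : 1 ≤ b₂ - b := by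
      have := H.T_lip hk b b₂
      rw [hb₂'', abs_of_nonneg (sub_nonneg.2 hb₂.1)] at this
      rw [abs_of_nonneg (by linarith)] at this
      linarith
    have h3 := H.cross hε hsep hF hk hk (t₀ := 0) (by rw [D.hφ.zero])
      (show H.T b k + 1 < H.T b k + B by linarith) (a₁ := b₁) (b₁ := a) (a₂ := b₂) (b₂ := c)
      (by linarith) (by linarith) (by linarith) (by linarith) (fun s hs t ht σ hσ he hT => ?_)
    · have : H.T b k + B - (H.T b k + 1) = B - 1 := by ring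
      rw [this] at h3
      linarith
    · rw [uIcc_of_ge hb₁.1] at hs
      rw [uIcc_of_le hb₂.2] at ht
      have h4 : H.x k (σ + s) = H.x k t := by
        simp only [x, he, hT, zero_add]
      have h5 := H.x_injective hk h4
      have := (abs_lt.1 hσ).2
      linarith [hs.2, ht.1]

/-- the curve through `k` goes up by `B` -/
def Pos (B : ℝ) (k : (E × E) × (ℝ × ℝ)) : Prop := ∃ σ > 0, B < H.T σ k

variable {H} {B : ℝ} (hB : 0 < B) (hnb : ∀ k ∈ D.Hat, ∀ a b c : ℝ, a ≤ b → b ≤ c →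
    ¬(B ≤ H.T b k - H.T a k ∧ B ≤ H.T b k - H.T c k) ∧
      ¬(B ≤ H.T a k - H.T b k ∧ B ≤ H.T c k - H.T b k))

include hB hnb

theorem pos_or_neg {k : (E × E) × (ℝ × ℝ)} (hk : k ∈ D.Hat) :
    H.Pos B k ∨ H.Pos B (k.1, -k.2) := by
  obtain ⟨σ, hσ, h1⟩ := H.unbounded hk B
  have hσ0 : 0 < σ := by
    rcases eq_or_lt_of_le hσ with h | h
    · rw [← h, H.T_zero, abs_zero] at h1
      linarith
    · exact h
  rcases lt_abs.1 h1 with h2 | h2
  · exact Or.inl ⟨σ, hσ0, h2⟩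
  · right
    obtain ⟨σ', hσ', h3⟩ := H.unbounded (D.Hat_neg hk) B
    have hσ0' : 0 < σ' := by
      rcases eq_or_lt_of_le hσ' with h | h
      · rw [← h, H.T_zero, abs_zero] at h3
        linarith
      · exact h
    rcases lt_abs.1 h3 with h4 | h4
    · exact ⟨σ', hσ0', h4⟩
    · exfalso
      rw [H.T_neg hk] at h4
      refine (hnb k hk (-σ') 0 σ (by linarith) hσ).1 ⟨?_, ?_⟩
      · rw [H.T_zero]
        linarith
      · rw [H.T_zero]
        linarith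

theorem not_pos_neg {k : (E × E) × (ℝ × ℝ)} (hk : k ∈ D.Hat) (h : H.Pos B k) :
    ¬ H.Pos B (k.1, -k.2) := by
  rintro ⟨σ', hσ', h1⟩
  obtain ⟨σ, hσ, h2⟩ := h
  rw [H.T_neg hk] at h1
  refine (hnb k hk (-σ') 0 σ (by linarith) hσ.le).2 ⟨?_, ?_⟩
  · rw [H.T_zero]
    linarith
  · rw [H.T_zero]
    linarith

theorem pos_stay {k : (E × E) × (ℝ × ℝ)} (hk : k ∈ D.Hat) {σ₀ : ℝ} (hσ₀ : 0 < σ₀)
    (h : B < H.T σ₀ k) {σ : ℝ} (hσ : σ₀ ≤ σ) : 0 < H.T σ k := by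
  have h1 := (hnb k hk 0 σ₀ σ hσ₀.le hσ).1
  rw [H.T_zero, sub_zero] at h1
  by_contra hcon
  exact h1 ⟨h.le, by linarith⟩

omit hB hnb in
theorem pos_open : IsOpen {k | H.Pos B k} := by
  have : {k | H.Pos B k} = ⋃ σ ∈ Ioi (0 : ℝ), {k | B < H.T σ k} := by
    ext k
    simp [Pos]
  rw [this]
  exact isOpen_biUnion fun σ _ => isOpen_lt continuous_const (H.cont_Tσ σ)

theorem pos_compact : IsCompact {k | k ∈ D.Hat ∧ H.Pos B k} := by
  refine D.Hat_compact.of_isClosed_subset ?_ fun k hk => hk.1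
  have h1 : {k | k ∈ D.Hat ∧ H.Pos B k} = D.Hat ∩ {k | H.Pos B (k.1, -k.2)}ᶜ := by
    ext k
    constructor
    · rintro ⟨h1, h2⟩
      exact ⟨h1, not_pos_neg hB hnb h1 h2⟩
    · rintro ⟨h1, h2⟩
      exact ⟨h1, (pos_or_neg hB hnb h1).resolve_right h2⟩
  rw [h1]
  have h2 : Continuous fun k : (E × E) × (ℝ × ℝ) => (k.1, -k.2) := by fun_prop
  exact D.Hat_compact.isClosed.inter (pos_open.preimage h2).isClosed_compl

theorem pos_drift : ∃ S > 0, ∀ k ∈ D.Hat, H.Pos B k → ∀ σ ≥ S, 0 < H.T σ k := by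
  obtain ⟨t, ht⟩ := (pos_compact hB hnb).elim_finite_subcover (fun σ : Ioi (0 : ℝ) =>
    {k | B < H.T σ k}) (fun σ => isOpen_lt continuous_const (H.cont_Tσ σ)) (by
      rintro k ⟨-, σ, hσ, h⟩
      exact mem_iUnion.2 ⟨⟨σ, hσ⟩, h⟩)
  refine ⟨∑ σ ∈ t, |(σ : ℝ)| + 1, by positivity, fun k hk hp σ hσ => ?_⟩
  obtain ⟨s, hst, hs⟩ := mem_iUnion₂.1 (ht ⟨hk, hp⟩)
  have h5 : |(s : ℝ)| ≤ ∑ σ ∈ t, |(σ : ℝ)| := Finset.single_le_sum (f := fun σ => |((σ : Ioi (0 : ℝ)) : ℝ)|)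
    (fun σ _ => abs_nonneg _) hst
  have := le_abs_self (s : ℝ)
  exact pos_stay hB hnb hk s.2 hs (by linarith)

end HatFlow

end Base

end Vale.Agent.P220.R2.H57
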