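import Vale.Agent.P220.R2.H57.Hat
import Vale.Agent.P220.R2.H57.B.Vec

/-!
The flow of the leafwise field on the orientation double cover.
-/

open Set Filter Topology
open scoped ContDiff Manifold

set_option linter.unusedSectionVars false

namespace Vale.Agent.P220.R2.H57

variable {E : Type} [NormedAddCommGroup E] [InnerProductSpace ℝ E] [FiniteDimensional ℝ E]

namespace Base

variable (D : Base E)

/-- the double cover of `L` by the unit vectors of the line field -/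
def Hat : Set ((E × E) × (ℝ × ℝ)) :=
  {k | k.1 ∈ D.L ∧ (∃ v, D.Lf k.1 k.2 v) ∧ k.2.1 ^ 2 + k.2.2 ^ 2 = 1}

/-- a flow on the double cover that lifts the leafwise line field -/
structure HatFlow where
  Φ : ℝ → (E × E) × (ℝ × ℝ) → (E × E) × (ℝ × ℝ)
  cont : Continuous fun x : ℝ × ((E × E) × (ℝ × ℝ)) => Φ x.1 x.2
  zero : ∀ k, Φ 0 k = k
  add : ∀ s t k, Φ (s + t) k = Φ s (Φ t k)
  mem : ∀ k ∈ D.Hat, ∀ t, Φ t k ∈ D.Hat
  deriv : ∀ k ∈ D.Hat, ∀ t, ∃ v, D.Lf (Φ t k).1 (Φ t k).2 v ∧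
    HasDerivAt (fun s => (Φ s k).1) v t
  rev : ∀ k ∈ D.Hat, ∀ t, Φ t (k.1, -k.2) = ((Φ (-t) k).1, -(Φ (-t) k).2)

theorem Hat_neg {k : (E × E) × (ℝ × ℝ)} (hk : k ∈ D.Hat) : (k.1, -k.2) ∈ D.Hat := by
  obtain ⟨h1, ⟨v, hv⟩, h3⟩ := hk
  refine ⟨h1, ⟨-v, ?_⟩, ?_⟩
  · have := hv.smul (-1)
    simpa using this
  · simpa using h3

theorem Hat_compact : IsCompact D.Hat := by
  obtain ⟨V, P, hV, hP, hVP⟩ := D.exists_VP
  have h1 : D.Hat = {k | k.1 ∈ D.L ∧ P k.1 k.2 = k.2 ∧ k.2.1 ^ 2 + k.2.2 ^ 2 = 1} := by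
    ext k
    constructor
    · rintro ⟨h1, ⟨v, hv⟩, h3⟩
      exact ⟨h1, (hVP _ h1).2 _ _ hv, h3⟩
    · rintro ⟨h1, h2, h3⟩
      refine ⟨h1, ⟨V k.1 k.2, ?_⟩, h3⟩
      have := (hVP _ h1).1 k.2
      rwa [h2] at this
  have h2 : IsClosed D.Hat := by
    rw [h1]
    have hPc : Continuous fun k : (E × E) × (ℝ × ℝ) => P k.1 k.2 :=
      (hP.continuous.comp continuous_fst).clm_apply continuous_snd
    exact (D.hL.isClosed.preimage continuous_fst).inter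
      ((isClosed_eq hPc continuous_snd).inter (isClosed_eq (by fun_prop) continuous_const))
  refine (D.cL.prod (isCompact_closedBall (0 : ℝ × ℝ) 1)).of_isClosed_subset h2 ?_
  rintro ⟨z, u⟩ ⟨h1, -, h3⟩
  refine ⟨h1, ?_⟩
  rw [mem_closedBall_zero_iff]
  simp only at h3
  rw [Prod.norm_def]
  refine max_le ?_ ?_
  · rw [Real.norm_eq_abs]
    exact abs_le_one_iff_mul_self_le_one.2 (by nlinarith [sq_nonneg u.2])
  · rw [Real.norm_eq_abs]
    exact abs_le_one_iff_mul_self_le_one.2 (by nlinarith [sq_nonneg u.1])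

theorem exists_hatFlow : Nonempty D.HatFlow := by
  obtain ⟨V, P, hV, hP, hVP⟩ := D.exists_VP
  -- the local retraction
  set w : (E × E) × (ℝ × ℝ) → ℝ × ℝ := fun k => P (D.ρ k.1) k.2 with hw
  set s : (E × E) × (ℝ × ℝ) → ℝ := fun k => (w k).1 ^ 2 + (w k).2 ^ 2 with hs
  set R : (E × E) × (ℝ × ℝ) → (E × E) × (ℝ × ℝ) :=
    fun k => (D.ρ k.1, (Real.sqrt (s k))⁻¹ • w k) with hR
  set U' : Set ((E × E) × (ℝ × ℝ)) := {k | k.1 ∈ D.UL ∧ 0 < s k} with hU'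
  have hws : ContDiff ℝ ∞ w := (hP.comp (D.hL.smooth.comp contDiff_fst)).clm_apply contDiff_snd
  have hss : ContDiff ℝ ∞ s := (((contDiff_fst.comp hws).pow 2).add ((contDiff_snd.comp hws).pow 2))
  have hU'o : IsOpen U' :=
    (D.hL.isOpen.preimage continuous_fst).inter (isOpen_lt continuous_const hss.continuous)
  have hRs : ContDiffOn ℝ ∞ R U' := by
    have h1 : ContDiffOn ℝ ∞ (fun k => (Real.sqrt (s k))⁻¹) U' := by
      refine ContDiffOn.inv (hss.contDiffOn.sqrt (fun k hk => hk.2.ne')) ?_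
      intro k hk
      exact (Real.sqrt_pos.2 hk.2).ne'
    have h2 : ContDiffOn ℝ ∞ (fun k => (Real.sqrt (s k))⁻¹ • w k) U' := h1.smul hws.contDiffOn
    exact (D.hL.smooth.comp contDiff_fst).contDiffOn.prodMk h2
  have hwHat : ∀ k ∈ D.Hat, w k = k.2 := by
    rintro k ⟨h1, ⟨v, hv⟩, h3⟩
    simp only [hw]
    rw [D.hL.fix _ h1]
    exact (hVP _ h1).2 _ _ hv
  have hsub : D.Hat ⊆ U' := by
    intro k hk
    refine ⟨D.hL.sub hk.1, ?_⟩
    simp only [hs]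
    rw [hwHat k hk, hk.2.2]
    exact one_pos
  have hRm : ∀ k ∈ U', R k ∈ D.Hat := by
    rintro k ⟨h1, h2⟩
    have h3 : D.ρ k.1 ∈ D.L := D.hL.maps _ h1
    refine ⟨h3, ⟨_, ((hVP _ h3).1 k.2).smul (Real.sqrt (s k))⁻¹⟩, ?_⟩
    simp only [hR, Prod.smul_fst, Prod.smul_snd, smul_eq_mul, mul_pow]
    rw [← mul_add, inv_pow, Real.sq_sqrt h2.le]
    exact inv_mul_cancel₀ h2.ne'
  have hRf : ∀ k ∈ D.Hat, R k = k := by
    intro k hk
    simp only [hR, hs]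
    rw [hwHat k hk, hk.2.2, D.hL.fix _ hk.1]
    simp
  have hRneg : ∀ k, R (k.1, -k.2) = ((R k).1, -(R k).2) := by
    intro k
    have h1 : w (k.1, -k.2) = -w k := by simp [hw]
    have h2 : s (k.1, -k.2) = s k := by simp [hs, h1]
    simp only [hR, h1, h2, smul_neg]
  obtain ⟨U, r, hr, hUU, hrR⟩ := isRet_of_local D.Hat_compact hU'o hsub hRs hRm hRf
  -- the field
  obtain ⟨B, hB⟩ := D.Hat_compact.isBounded.exists_norm_le
  obtain ⟨χ, hχ, hχc, hχ1⟩ := exists_cutoff (F := (E × E) × (ℝ × ℝ)) B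
  set Y : (E × E) × (ℝ × ℝ) → (E × E) × (ℝ × ℝ) :=
    fun k => χ k • fderiv ℝ r k (V k.1 k.2, 0) with hY
  have hYs : ContDiff ℝ ∞ Y := hχ.smul ((hr.smooth.fderiv_right (m := ∞) (by simp)).clm_apply
    (((hV.comp contDiff_fst).clm_apply contDiff_snd).prodMk contDiff_const))
  have hYc : HasCompactSupport Y := hχc.smul_right
  have hY1 : ∀ k ∈ D.Hat, Y k = fderiv ℝ r k (V k.1 k.2, 0) := by
    intro k hk
    simp only [hY]
    rw [hχ1 k (hB k hk), one_smul]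
  have hYT : ∀ k ∈ D.Hat, Y k ∈ Tn r k := by
    intro k hk
    rw [hY1 k hk]
    exact hr.fderiv_mem hk _
  obtain ⟨Φ, hΦ⟩ := exists_flow_compact hYs hYc
  have hmem : ∀ k ∈ D.Hat, ∀ t, Φ t k ∈ D.Hat := fun k hk t => hr.flow_mem hYs hΦ hYT hk t
  have hV1 : ∀ k ∈ D.Hat, D.Lf k.1 k.2 (V k.1 k.2) := by
    rintro k ⟨h1, ⟨v, hv⟩, h3⟩
    have h4 := (hVP _ h1).1 k.2
    rwa [(hVP _ h1).2 _ _ hv] at h4
  -- the first component of the field
  have hYfst : ∀ k ∈ D.Hat, (Y k).1 = V k.1 k.2 := by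
    intro k hk
    have h1 : HasFDerivAt (fun k => (r k).1) ((ContinuousLinearMap.fst ℝ _ _).comp
        (fderiv ℝ r k)) k := hasFDerivAt_fst.comp k (hr.hasFDerivAt k)
    have h2 : HasFDerivAt (fun k : (E × E) × (ℝ × ℝ) => D.ρ k.1) ((fderiv ℝ D.ρ k.1).comp
        (ContinuousLinearMap.fst ℝ _ _)) k := (D.hL.hasFDerivAt k.1).comp k hasFDerivAt_fst
    have h3 : (fun k => (r k).1) =ᶠ[𝓝 k] fun k => D.ρ k.1 := by
      filter_upwards [hr.isOpen.mem_nhds (hr.sub hk)] with y hy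
      rw [hrR y hy]
    have h4 := h1.unique (h2.congr_of_eventuallyEq h3)
    have h5 := congrArg (fun C => C (V k.1 k.2, 0)) h4
    simp only [ContinuousLinearMap.comp_apply, ContinuousLinearMap.coe_fst'] at h5
    rw [hY1 k hk, h5]
    exact (hV1 k hk).1
  -- the reversal
  set ι : ((E × E) × (ℝ × ℝ)) →L[ℝ] ((E × E) × (ℝ × ℝ)) :=
    (ContinuousLinearMap.fst ℝ _ _).prod (-ContinuousLinearMap.snd ℝ _ _) with hι
  have hιa : ∀ k, ι k = (k.1, -k.2) := fun k => rfl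
  have hYι : ∀ k ∈ D.Hat, Y (ι k) = - ι (Y k) := by
    intro k hk
    have hιk : ι k ∈ D.Hat := D.Hat_neg hk
    have h1 : HasFDerivAt (fun k => r (ι k)) ((fderiv ℝ r (ι k)).comp ι) k :=
      (hr.hasFDerivAt (ι k)).comp k ι.hasFDerivAt
    have h2 : HasFDerivAt (fun k => ι (r k)) (ι.comp (fderiv ℝ r k)) k :=
      ι.hasFDerivAt.comp k (hr.hasFDerivAt k)
    have h3 : (fun k => r (ι k)) =ᶠ[𝓝 k] fun k => ι (r k) := by
      filter_upwards [hr.isOpen.mem_nhds (hr.sub hk),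
        ι.continuous.continuousAt.preimage_mem_nhds (hr.isOpen.mem_nhds (hr.sub hιk))] with y hy hy'
      rw [hrR y hy, hrR _ hy', hιa, hιa, hRneg]
    have h4 := h1.unique (h2.congr_of_eventuallyEq h3)
    have h5 := congrArg (fun C => C (-(V k.1 k.2), 0)) h4
    simp only [ContinuousLinearMap.comp_apply] at h5
    rw [hY1 _ hιk, hY1 k hk]
    have h6 : (V (ι k).1 (ι k).2, (0 : ℝ × ℝ)) = ι (-(V k.1 k.2), 0) := by
      rw [hιa, hιa]
      simp
    have h7 : (-(V k.1 k.2), (0 : ℝ × ℝ)) = -(V k.1 k.2, 0) := by simp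
    rw [h6, h5, h7, map_neg, map_neg]
  refine ⟨⟨Φ, hΦ.continuous, hΦ.zero, hΦ.add, hmem, fun k hk t => ?_, fun k hk t => ?_⟩⟩
  · refine ⟨_, hV1 _ (hmem k hk t), ?_⟩
    rw [← hYfst _ (hmem k hk t)]
    exact (hasFDerivAt_fst (𝕜 := ℝ) (p := Φ t k)).comp_hasDerivAt t (hΦ.deriv t k)
  · have h1 := hΦ.uniq (fun t => ι (Φ (-t) k)) (fun t => by
      have h2 : HasDerivAt (fun s : ℝ => -s) (-1) t := hasDerivAt_neg t
      have h3 := (hΦ.deriv (-t) k).scomp t h2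
      have h4 := ι.hasFDerivAt.comp_hasDerivAt t h3
      rw [hYι _ (hmem k hk (-t))]
      simpa [Function.comp_def] using h4) t
    simp only [neg_zero, hΦ.zero] at h1
    exact h1.symm

end Base

end Vale.Agent.P220.R2.H57
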