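import Vale.Agent.P220.R2.H57.Dyn
import Vale.Agent.P220.R2.H57.B.Hat

/-!
Leafwise curves on the double cover: local uniqueness, no U-turns, walls.
-/

open Set Filter Topology
open scoped ContDiff Manifold

set_option linter.unusedSectionVars false

namespace Vale.Agent.P220.R2.H57

variable {E : Type} [NormedAddCommGroup E] [InnerProductSpace ℝ E] [FiniteDimensional ℝ E]

namespace Base

namespace HatFlow

variable {D : Base E} (H : D.HatFlow)

/-- the leafwise time along the curve through `k` -/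
noncomputable def T (σ : ℝ) (k : (E × E) × (ℝ × ℝ)) : ℝ := ∫ s in (0 : ℝ)..σ, (H.Φ s k).2.1

theorem cont_a (k : (E × E) × (ℝ × ℝ)) : Continuous fun s => (H.Φ s k).2.1 := by
  have : Continuous fun s : ℝ => H.Φ s k := H.cont.comp (continuous_id.prodMk continuous_const)
  fun_prop

theorem cont_T : Continuous fun x : ℝ × ((E × E) × (ℝ × ℝ)) => H.T x.1 x.2 := by
  unfold T
  have h1 : Continuous (Function.uncurry fun (x : ℝ × ((E × E) × (ℝ × ℝ))) (s : ℝ) =>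
      (H.Φ s x.2).2.1) := by
    have h2 : Continuous fun y : (ℝ × ((E × E) × (ℝ × ℝ))) × ℝ => H.Φ y.2 y.1.2 :=
      H.cont.comp (continuous_snd.prodMk (continuous_snd.comp continuous_fst))
    exact continuous_fst.comp (continuous_snd.comp h2)
  exact intervalIntegral.continuous_parametric_intervalIntegral_of_continuous h1 continuous_fst

theorem T_zero (k : (E × E) × (ℝ × ℝ)) : H.T 0 k = 0 := by simp [T]

theorem T_add (s t : ℝ) (k : (E × E) × (ℝ × ℝ)) : H.T (s + t) k = H.T t k + H.T s (H.Φ t k) := by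
  unfold T
  have hi : ∀ a b, IntervalIntegrable (fun s => (H.Φ s k).2.1) MeasureTheory.volume a b :=
    fun a b => (H.cont_a k).intervalIntegrable a b
  rw [← intervalIntegral.integral_add_adjacent_intervals (hi 0 t) (hi t (s + t))]
  congr 1
  have h1 := intervalIntegral.integral_comp_add_right (fun x => (H.Φ x k).2.1) t (a := 0) (b := s)
  rw [zero_add] at h1
  rw [← h1]
  refine intervalIntegral.integral_congr fun x _ => ?_
  simp only [H.add]

theorem hasDerivAt_T (σ : ℝ) (k : (E × E) × (ℝ × ℝ)) :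
    HasDerivAt (fun s => H.T s k) (H.Φ σ k).2.1 σ :=
  intervalIntegral.integral_hasDerivAt_right ((H.cont_a k).intervalIntegrable 0 σ)
    ((H.cont_a k).stronglyMeasurableAtFilter _ _) (H.cont_a k).continuousAt

theorem hasDerivAt_h {k : (E × E) × (ℝ × ℝ)} (hk : k ∈ D.Hat) (σ : ℝ) :
    HasDerivAt (fun s => D.h (H.Φ s k).1) (H.Φ σ k).2.2 σ := by
  obtain ⟨v, hv, hd⟩ := H.deriv k hk σ
  have h1 : HasFDerivAt D.h (fderiv ℝ D.h (H.Φ σ k).1) (H.Φ σ k).1 :=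
    (D.h_smooth.differentiable (by simp) _).hasFDerivAt
  have := h1.comp_hasDerivAt σ hd
  rwa [hv.2.2] at this

theorem abs_fst_le {k : (E × E) × (ℝ × ℝ)} (hk : k ∈ D.Hat) : |k.2.1| ≤ 1 := by
  have := hk.2.2
  exact abs_le_one_iff_mul_self_le_one.2 (by nlinarith [sq_nonneg k.2.2])

theorem base {k : (E × E) × (ℝ × ℝ)} (hk : k ∈ D.Hat) (σ : ℝ) :
    (H.Φ σ k).1.1 = D.φ (H.T σ k) k.1.1 := by
  obtain ⟨C, hC⟩ := ContDiff.lipschitzWith_of_hasCompactSupport D.cX D.hX (by simp)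
  have key := ODE_solution_unique_univ (v := fun t x => (H.Φ t k).2.1 • D.X x) (s := fun _ => univ)
    (K := C) (f := fun σ => (H.Φ σ k).1.1) (g := fun σ => D.φ (H.T σ k) k.1.1) (t₀ := 0)
    ?_ ?_ ?_ ?_
  · exact congrFun key σ
  · intro t
    have h1 : |(H.Φ t k).2.1| ≤ 1 := abs_fst_le (H.mem k hk t)
    refine LipschitzOnWith.of_dist_le_mul fun x _ y _ => ?_
    rw [dist_smul₀]
    have h2 := hC.dist_le_mul x y
    have h3 : ‖(H.Φ t k).2.1‖ ≤ 1 := h1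
    calc ‖(H.Φ t k).2.1‖ * dist (D.X x) (D.X y) ≤ 1 * dist (D.X x) (D.X y) := by gcongr
      _ ≤ C * dist x y := by rw [one_mul]; exact h2
  · intro t
    refine ⟨?_, mem_univ _⟩
    obtain ⟨v, hv, hd⟩ := H.deriv k hk t
    have h1 := (hasFDerivAt_fst (𝕜 := ℝ) (p := (H.Φ t k).1)).comp_hasDerivAt t hd
    rw [← hv.2.1]
    exact h1
  · intro t
    refine ⟨?_, mem_univ _⟩
    have h1 := D.hφ.deriv (H.T t k) k.1.1
    have h2 := h1.scomp t (H.hasDerivAt_T t k)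
    simpa [Function.comp_def] using h2
  · simp only [H.zero, H.T_zero, D.hφ.zero]

theorem T_neg {k : (E × E) × (ℝ × ℝ)} (hk : k ∈ D.Hat) (σ : ℝ) :
    H.T σ (k.1, -k.2) = H.T (-σ) k := by
  unfold T
  have h1 : ∀ s, (H.Φ s (k.1, -k.2)).2.1 = -(H.Φ (-s) k).2.1 := by
    intro s
    rw [H.rev k hk s]
    simp
  simp_rw [h1]
  rw [intervalIntegral.integral_neg, intervalIntegral.integral_comp_neg (fun s => (H.Φ s k).2.1),
    neg_zero, intervalIntegral.integral_symm, neg_neg]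

theorem no_turn {k : (E × E) × (ℝ × ℝ)} (hk : k ∈ D.Hat) (σ : ℝ) : H.Φ σ k ≠ (k.1, -k.2) := by
  intro h
  set m := H.Φ (σ / 2) k with hm
  have h1 : H.Φ (σ / 2) m = (k.1, -k.2) := by
    rw [hm, ← H.add, add_halves, h]
  have h2 : H.Φ (-(σ / 2)) (k.1, -k.2) = m := by
    rw [← h1, ← H.add, neg_add_cancel, H.zero]
  rw [H.rev k hk, neg_neg, ← hm] at h2
  have h3 : -m.2 = m.2 := congrArg Prod.snd h2
  have h4 : m.2 = 0 := by
    have h5 : (2 : ℝ) • m.2 = 0 := by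
      rw [two_smul]
      nth_rw 1 [← h3]
      exact neg_add_cancel _
    simpa using h5
  have h6 := (H.mem k hk (σ / 2)).2.2
  rw [← hm, h4] at h6
  simp at h6

end HatFlow

variable (D : Base E)

theorem Hat_pm {k k' : (E × E) × (ℝ × ℝ)} (hk : k ∈ D.Hat) (hk' : k' ∈ D.Hat) (h : k'.1 = k.1) :
    k' = k ∨ k' = (k.1, -k.2) := by
  obtain ⟨h1, ⟨v, hv⟩, h3⟩ := hk
  obtain ⟨h1', ⟨v', hv'⟩, h3'⟩ := hk'
  rw [h] at hv'
  obtain ⟨c, hc, -⟩ := hv.prop h1 hv' h3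
  have h4 : c ^ 2 = 1 := by
    rw [hc] at h3'
    simp only [Prod.smul_fst, Prod.smul_snd, smul_eq_mul] at h3'
    linear_combination h3' - c ^ 2 * h3
  have h4' : (c - 1) * (c + 1) = 0 := by linear_combination h4
  rcases mul_eq_zero.1 h4' with h5 | h5
  · left
    rw [sub_eq_zero.1 h5, one_smul] at hc
    exact Prod.ext h hc
  · right
    rw [eq_neg_of_add_eq_zero_left h5, neg_smul, one_smul] at hc
    exact Prod.ext h hc

namespace HatFlow

variable {D} (H : D.HatFlow)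

/-- Local uniqueness: nearby points of `L` over nearby points of the same orbit of `X` lie on the
same short leafwise arc. -/
theorem local_unique {k₀ : (E × E) × (ℝ × ℝ)} (hk₀ : k₀ ∈ D.Hat) {η : ℝ} (hη : 0 < η) :
    ∃ O ∈ 𝓝 k₀, ∃ ε > 0, ∀ k ∈ O, ∀ k' ∈ O, k ∈ D.Hat → k' ∈ D.Hat → ∀ t, |t| < ε →
      k'.1.1 = D.φ t k.1.1 → ∃ σ, |σ| < η ∧ H.Φ σ k = k' ∧ H.T σ k = t := by
  obtain ⟨hz₀, ⟨v₀, hv₀⟩, hu₀⟩ := id hk₀
  set Ξ : (E × E) × ℝ → E × (ℝ × (E × E)) := fun x =>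
    (D.φ (-x.2) x.1.1, (k₀.2.1 * x.2 + k₀.2.2 * D.h x.1, x.1 - D.ρ x.1)) with hΞ
  have hΞs : ContDiff ℝ ∞ Ξ := by
    refine (D.hφ.smooth.comp (contDiff_snd.neg.prodMk (contDiff_fst.comp contDiff_fst))).prodMk
      (((contDiff_const.mul contDiff_snd).add
        (contDiff_const.mul (D.h_smooth.comp contDiff_fst))).prodMk
        (contDiff_fst.sub (D.hL.smooth.comp contDiff_fst)))
  -- the derivative
  have hφd : HasFDerivAt (fun x : (E × E) × ℝ => D.φ (-x.2) x.1.1)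
      ((ContinuousLinearMap.fst ℝ E E).comp (ContinuousLinearMap.fst ℝ (E × E) ℝ) -
        (ContinuousLinearMap.snd ℝ (E × E) ℝ).smulRight (D.X k₀.1.1)) (k₀.1, 0) := by
    have hG : ContDiff ℝ ∞ (fun x : (E × E) × ℝ => D.φ (-x.2) x.1.1) :=
      D.hφ.smooth.comp (contDiff_snd.neg.prodMk (contDiff_fst.comp contDiff_fst))
    have h1 := (hG.differentiable (by simp) (k₀.1, 0)).hasFDerivAt
    set C := fderiv ℝ (fun x : (E × E) × ℝ => D.φ (-x.2) x.1.1) (k₀.1, 0) with hC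
    have h2 : ∀ v : E × E, C (v, 0) = v.1 := by
      intro v
      have h3 : HasFDerivAt (fun y : E × E => ((y, 0) : (E × E) × ℝ))
        (ContinuousLinearMap.inl ℝ (E × E) ℝ) k₀.1 := hasFDerivAt_prodMk_left _ _
      have h4 := h1.comp k₀.1 h3
      have h5 : ((fun x : (E × E) × ℝ => D.φ (-x.2) x.1.1) ∘ fun y : E × E =>
          ((y, 0) : (E × E) × ℝ)) = fun y => y.1 := by
        funext y
        simp [D.hφ.zero]
      rw [h5] at h4
      have h6 := congrArg (fun C => C v) (h4.unique hasFDerivAt_fst)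
      simpa using h6
    have h3 : ∀ c : ℝ, C (0, c) = -(c • D.X k₀.1.1) := by
      intro c
      have h3 : HasFDerivAt (fun y : ℝ => ((k₀.1, y) : (E × E) × ℝ))
        (ContinuousLinearMap.inr ℝ (E × E) ℝ) 0 := hasFDerivAt_prodMk_right _ _
      have h4 := h1.comp (0 : ℝ) h3
      have h5 : HasDerivAt (fun y : ℝ => D.φ (-y) k₀.1.1) (-(D.X k₀.1.1)) 0 := by
        have h6 := D.hφ.deriv (-0) k₀.1.1
        have h7 := h6.scomp (0 : ℝ) (hasDerivAt_neg (0 : ℝ))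
        simpa [D.hφ.zero, Function.comp_def] using h7
      have h8 := congrArg (fun C => C c) (h4.unique h5.hasFDerivAt)
      simpa using h8
    have h4 : C = (ContinuousLinearMap.fst ℝ E E).comp (ContinuousLinearMap.fst ℝ (E × E) ℝ) -
        (ContinuousLinearMap.snd ℝ (E × E) ℝ).smulRight (D.X k₀.1.1) := by
      refine ContinuousLinearMap.ext fun x => ?_
      have h5 : x = (x.1, 0) + (0, x.2) := by simp
      conv_lhs => rw [h5, map_add, h2, h3]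
      simp [sub_eq_add_neg]
    rw [← h4]
    exact h1
  have hdd : HasFDerivAt Ξ (((ContinuousLinearMap.fst ℝ E E).comp (ContinuousLinearMap.fst ℝ (E × E) ℝ)
      - (ContinuousLinearMap.snd ℝ (E × E) ℝ).smulRight (D.X k₀.1.1)).prod
      ((k₀.2.1 • ContinuousLinearMap.snd ℝ (E × E) ℝ + k₀.2.2 •
        (fderiv ℝ D.h k₀.1).comp (ContinuousLinearMap.fst ℝ (E × E) ℝ)).prod
      (ContinuousLinearMap.fst ℝ (E × E) ℝ -
        (fderiv ℝ D.ρ k₀.1).comp (ContinuousLinearMap.fst ℝ (E × E) ℝ)))) (k₀.1, 0) := by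
    refine hφd.prodMk (HasFDerivAt.prodMk ?_ (hasFDerivAt_fst.sub ?_))
    · have h0 : HasFDerivAt D.h (fderiv ℝ D.h k₀.1) ((k₀.1, (0 : ℝ)) : (E × E) × ℝ).1 :=
        (D.h_smooth.differentiable (by simp) k₀.1).hasFDerivAt
      have h1 : HasFDerivAt (fun x : (E × E) × ℝ => D.h x.1) ((fderiv ℝ D.h k₀.1).comp
          (ContinuousLinearMap.fst ℝ (E × E) ℝ)) (k₀.1, 0) := h0.comp (k₀.1, (0 : ℝ)) hasFDerivAt_fst
      exact (hasFDerivAt_snd.const_mul k₀.2.1).add (h1.const_mul k₀.2.2)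
    · have h0 : HasFDerivAt D.ρ (fderiv ℝ D.ρ k₀.1) ((k₀.1, (0 : ℝ)) : (E × E) × ℝ).1 :=
        D.hL.hasFDerivAt k₀.1
      exact h0.comp (k₀.1, (0 : ℝ)) hasFDerivAt_fst
  have hinj : ∀ v, fderiv ℝ Ξ (k₀.1, 0) v = 0 → v = 0 := by
    rintro ⟨v, c⟩ hv
    rw [hdd.fderiv] at hv
    simp only [ContinuousLinearMap.prod_apply, sub_apply, ContinuousLinearMap.comp_apply,
      ContinuousLinearMap.coe_fst', ContinuousLinearMap.smulRight_apply,
      ContinuousLinearMap.coe_snd', add_apply, FunLike.coe_smul, Pi.smul_apply, smul_eq_mul,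
      Prod.mk_eq_zero] at hv
    obtain ⟨h1, h2, h3⟩ := hv
    have hLf : D.Lf k₀.1 (c, fderiv ℝ D.h k₀.1 v) v := ⟨(sub_eq_zero.1 h3).symm, sub_eq_zero.1 h1, rfl⟩
    obtain ⟨l, hl, hl'⟩ := hv₀.prop hz₀ hLf hu₀
    have h4 : c = l * k₀.2.1 := congrArg Prod.fst hl
    have h5 : fderiv ℝ D.h k₀.1 v = l * k₀.2.2 := congrArg Prod.snd hl
    rw [h4, h5] at h2
    have h6 : l = 0 := by
      have : l * (k₀.2.1 ^ 2 + k₀.2.2 ^ 2) = 0 := by linear_combination h2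
      rwa [hu₀, mul_one] at this
    rw [h6, zero_mul] at h4
    rw [h6, zero_smul] at hl'
    rw [h4, hl']
    rfl
  obtain ⟨O₁, hO₁, hO₁inj⟩ := locInj hΞs hinj
  -- continuity of the relevant quantities
  have hcΦ : ContinuousAt (fun x : ℝ × ((E × E) × (ℝ × ℝ)) => H.Φ x.1 x.2) (0, k₀) :=
    H.cont.continuousAt
  have hcT : ContinuousAt (fun x : ℝ × ((E × E) × (ℝ × ℝ)) => H.T x.1 x.2) (0, k₀) :=
    H.cont_T.continuousAt
  have hev1 : ∀ᶠ x in 𝓝 ((0 : ℝ), k₀), 1 / 2 < k₀.2.1 * (H.Φ x.1 x.2).2.1 +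
      k₀.2.2 * (H.Φ x.1 x.2).2.2 := by
    have h1 : ContinuousAt (fun x : ℝ × ((E × E) × (ℝ × ℝ)) => k₀.2.1 * (H.Φ x.1 x.2).2.1 +
      k₀.2.2 * (H.Φ x.1 x.2).2.2) (0, k₀) := by
      have h2 : ContinuousAt (fun x : ℝ × ((E × E) × (ℝ × ℝ)) => (H.Φ x.1 x.2).2) (0, k₀) :=
        continuousAt_snd.comp hcΦ
      exact (continuousAt_const.mul (continuousAt_fst.comp h2)).add
        (continuousAt_const.mul (continuousAt_snd.comp h2))
    refine h1.eventually (lt_mem_nhds ?_)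
    simp only [H.zero]
    nlinarith
  have hev2 : ∀ᶠ x in 𝓝 (((0 : ℝ), k₀), (0 : ℝ)), ((H.Φ x.1.1 x.1.2).1,
      H.T x.1.1 x.1.2 - x.2) ∈ O₁ := by
    have h1 : ContinuousAt (fun x : (ℝ × ((E × E) × (ℝ × ℝ))) × ℝ => ((H.Φ x.1.1 x.1.2).1,
      H.T x.1.1 x.1.2 - x.2)) ((0, k₀), 0) := by
      have h2 : Continuous (fun x : (ℝ × ((E × E) × (ℝ × ℝ))) × ℝ => ((H.Φ x.1.1 x.1.2).1,
        H.T x.1.1 x.1.2 - x.2)) :=
        (continuous_fst.comp (H.cont.comp continuous_fst)).prodMk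
          ((H.cont_T.comp continuous_fst).sub continuous_snd)
      exact h2.continuousAt
    refine h1.eventually_mem ?_
    simp only [H.zero, H.T_zero, sub_zero]
    exact hO₁
  rw [nhds_prod_eq, nhds_prod_eq] at hev2
  rw [nhds_prod_eq] at hev1
  obtain ⟨pa, ha, pb, hb, hab⟩ := eventually_prod_iff.1 hev1
  obtain ⟨pc, hc, pd, hd, hcd⟩ := eventually_prod_iff.1 hev2
  obtain ⟨pe, he, pf, hf, hef⟩ := eventually_prod_iff.1 hc
  obtain ⟨δ₁, hδ₁, hδ₁'⟩ := Metric.eventually_nhds_iff.1 (ha.and he)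
  obtain ⟨δ₂, hδ₂, hδ₂'⟩ := Metric.eventually_nhds_iff.1 hd
  set δ := min (δ₁ / 2) (η / 2) with hδ
  have hδpos : 0 < δ := lt_min (by positivity) (by positivity)
  have hδ1 : δ < δ₁ := (min_le_left _ _).trans_lt (by linarith)
  have hδη : δ < η := (min_le_right _ _).trans_lt (by linarith)
  -- the height near the base point
  have hevh : ∀ᶠ k in 𝓝 k₀, |D.h k.1 - D.h k₀.1| < δ / 16 := by
    have h1 : ContinuousAt (fun k : (E × E) × (ℝ × ℝ) => D.h k.1) k₀ :=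
      (D.h_smooth.continuous.comp continuous_fst).continuousAt
    have := Metric.continuousAt_iff'.1 h1 (δ / 16) (by positivity)
    simpa [Real.dist_eq] using this
  have hevu : ∀ᶠ k in 𝓝 k₀, 1 / 2 < k₀.2.1 * k.2.1 + k₀.2.2 * k.2.2 := by
    have h1 : ContinuousAt (fun k : (E × E) × (ℝ × ℝ) => k₀.2.1 * k.2.1 + k₀.2.2 * k.2.2) k₀ := by
      fun_prop
    refine h1.eventually (lt_mem_nhds ?_)
    simp only
    nlinarith
  refine ⟨{k | pb k ∧ pf k ∧ |D.h k.1 - D.h k₀.1| < δ / 16 ∧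
    1 / 2 < k₀.2.1 * k.2.1 + k₀.2.2 * k.2.2}, hb.and (hf.and (hevh.and hevu)),
    min δ₂ (δ / 16), lt_min hδ₂ (by positivity), ?_⟩
  rintro k ⟨hkb, hkf, hkh, hku⟩ k' ⟨hkb', hkf', hkh', hku'⟩ hk hk' t ht hbase
  have hb1 : |k₀.2.1| ≤ 1 := abs_fst_le hk₀
  have hb2 : |k₀.2.2| ≤ 1 := by
    exact abs_le_one_iff_mul_self_le_one.2 (by nlinarith [sq_nonneg k₀.2.1])
  -- the function with a zero
  set G : ℝ → ℝ := fun σ => k₀.2.1 * (H.T σ k - t) + k₀.2.2 * (D.h (H.Φ σ k).1 - D.h k'.1) with hG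
  have hGd : ∀ σ, HasDerivAt G (k₀.2.1 * (H.Φ σ k).2.1 + k₀.2.2 * (H.Φ σ k).2.2) σ := fun σ =>
    (((H.hasDerivAt_T σ k).sub_const t).const_mul _).add
      (((H.hasDerivAt_h hk σ).sub_const _).const_mul _)
  have hGc : Continuous G := continuous_iff_continuousAt.2 fun σ => (hGd σ).continuousAt
  have hG0 : |G 0| < δ / 4 := by
    simp only [hG, H.T_zero, H.zero, zero_sub]
    have h1 : |t| < δ / 16 := ht.trans_le (min_le_right _ _)
    have h2 : |D.h k.1 - D.h k'.1| < δ / 8 := by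
      have : D.h k.1 - D.h k'.1 = (D.h k.1 - D.h k₀.1) - (D.h k'.1 - D.h k₀.1) := by ring
      rw [this]
      exact (abs_sub _ _).trans_lt (by linarith)
    calc |k₀.2.1 * -t + k₀.2.2 * (D.h k.1 - D.h k'.1)|
        ≤ |k₀.2.1 * -t| + |k₀.2.2 * (D.h k.1 - D.h k'.1)| := abs_add_le _ _
      _ = |k₀.2.1| * |t| + |k₀.2.2| * |D.h k.1 - D.h k'.1| := by rw [abs_mul, abs_mul, abs_neg]
      _ ≤ 1 * |t| + 1 * |D.h k.1 - D.h k'.1| := by gcongr
      _ < δ / 4 := by linarith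
  have hGd' : ∀ σ ∈ Icc (-δ) δ, 1 / 2 ≤ k₀.2.1 * (H.Φ σ k).2.1 + k₀.2.2 * (H.Φ σ k).2.2 := by
    intro σ hσ
    have h1 : dist σ 0 < δ₁ := by
      rw [Real.dist_eq, sub_zero]
      exact (abs_le.2 hσ).trans_lt hδ1
    exact (hab (hδ₁' h1).1 hkb).le
  have hgrow : ∀ a b, a ∈ Icc (-δ) δ → b ∈ Icc (-δ) δ → a ≤ b → 1 / 2 * (b - a) ≤ G b - G a := by
    intro a b ha hb hab
    have h1 := Convex.mul_sub_le_image_sub_of_le_deriv (D := Icc (-δ) δ) (convex_Icc _ _)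
      (f := G) hGc.continuousOn (fun σ _ => (hGd σ).differentiableAt.differentiableWithinAt)
      (C := 1 / 2) (fun σ hσ => by rw [(hGd σ).deriv]; exact hGd' σ (interior_subset hσ)) a ha b hb hab
    exact h1
  have hδm : -δ ∈ Icc (-δ) δ := ⟨le_refl _, by linarith⟩
  have hδp : δ ∈ Icc (-δ) δ := ⟨by linarith, le_refl _⟩
  have h0m : (0 : ℝ) ∈ Icc (-δ) δ := ⟨by linarith, hδpos.le⟩
  have hGp : 0 ≤ G δ := by
    have := hgrow 0 δ h0m hδp hδpos.le
    have := (abs_lt.1 hG0).1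
    linarith
  have hGm : G (-δ) ≤ 0 := by
    have := hgrow (-δ) 0 hδm h0m (by linarith)
    have := (abs_lt.1 hG0).2
    linarith
  obtain ⟨σ, hσ, hGσ⟩ := intermediate_value_Icc (show -δ ≤ δ by linarith) hGc.continuousOn
    ⟨hGm, hGp⟩
  have hσd : dist σ 0 < δ₁ := by
    rw [Real.dist_eq, sub_zero]
    exact (abs_le.2 hσ).trans_lt hδ1
  have htd : dist t 0 < δ₂ := by
    rw [Real.dist_eq, sub_zero]
    exact ht.trans_le (min_le_left _ _)
  have htd0 : dist (0 : ℝ) 0 < δ₂ := by rw [dist_self]; exact hδ₂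
  have h0d : dist (0 : ℝ) 0 < δ₁ := by rw [dist_self]; exact hδ₁
  have hm1 : ((H.Φ σ k).1, H.T σ k - t) ∈ O₁ := hcd (hef (hδ₁' hσd).2 hkf) (hδ₂' htd)
  have hm2 : (k'.1, (0 : ℝ)) ∈ O₁ := by
    have := hcd (hef (hδ₁' h0d).2 hkf') (hδ₂' htd0)
    simpa [H.zero, H.T_zero] using this
  have hΦmem := H.mem k hk σ
  have heq : Ξ ((H.Φ σ k).1, H.T σ k - t) = Ξ (k'.1, 0) := by
    simp only [hΞ]
    refine Prod.ext ?_ (Prod.ext ?_ ?_)
    · simp only [neg_zero, D.hφ.zero]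
      rw [H.base hk, ← D.hφ.add, hbase]
      congr 1
      ring
    · simp only
      have : G σ = 0 := hGσ
      simp only [hG] at this
      linarith
    · simp only
      rw [D.hL.fix _ hΦmem.1, D.hL.fix _ hk'.1, sub_self, sub_self]
  have h2 := hO₁inj hm1 hm2 heq
  have h3 : (H.Φ σ k).1 = k'.1 := (Prod.ext_iff.1 h2).1
  have h4 : H.T σ k - t = 0 := (Prod.ext_iff.1 h2).2
  refine ⟨σ, (abs_le.2 hσ).trans_lt hδη, ?_, sub_eq_zero.1 h4⟩
  rcases D.Hat_pm hk' hΦmem h3 with h5 | h5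
  · exact h5
  · exfalso
    have h6 := hab (hδ₁' hσd).1 hkb
    simp only [h5, Prod.fst_neg, Prod.snd_neg] at h6
    linarith

end HatFlow

end Base

end Vale.Agent.P220.R2.H57
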