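import Vale.Agent.P220.R2.H57.B.Loop
import Vale.Agent.P220.R2.H57.Angle

/-!
The oriented leafwise field and its angle.
-/

open Set Filter Topology
open scoped ContDiff Manifold

set_option linter.unusedSectionVars false

namespace Vale.Agent.P220.R2.H57

variable {E : Type} [NormedAddCommGroup E] [InnerProductSpace ℝ E] [FiniteDimensional ℝ E]

namespace Base

variable (D : Base E)

/-- The oriented leafwise field, its flow, and the lift to the double cover. -/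
structure Leaf where
  H : D.HatFlow
  u : E × E → ℝ × ℝ
  Z : E × E → E × E
  hu : ContDiff ℝ ∞ u
  hZ : ContDiff ℝ ∞ Z
  lf : ∀ z ∈ D.L, D.Lf z (u z) (Z z)
  unit : ∀ z ∈ D.L, (u z).1 ^ 2 + (u z).2 ^ 2 = 1
  S₀ : ℝ
  hS₀ : 0 < S₀
  pos : ∀ z ∈ D.L, ∀ σ ≥ S₀, 0 < H.T σ (z, u z)
  ζ : ℝ → E × E → E × E
  hζ : IsFlow Z ζ

namespace Leaf

variable {D} (Λ : D.Leaf)

theorem Z_tan {z : E × E} (hz : z ∈ D.L) : Λ.Z z ∈ Tn D.ρ z := (Λ.lf z hz).1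

theorem Z_fst {z : E × E} (hz : z ∈ D.L) : (Λ.Z z).1 = (Λ.u z).1 • D.X z.1 := (Λ.lf z hz).2.1

theorem Z_h {z : E × E} (hz : z ∈ D.L) : fderiv ℝ D.h z (Λ.Z z) = (Λ.u z).2 := (Λ.lf z hz).2.2

theorem mem_hat {z : E × E} (hz : z ∈ D.L) : ((z, Λ.u z) : (E × E) × (ℝ × ℝ)) ∈ D.Hat :=
  ⟨hz, ⟨_, Λ.lf z hz⟩, Λ.unit z hz⟩

theorem ζ_mem {z : E × E} (hz : z ∈ D.L) (σ : ℝ) : Λ.ζ σ z ∈ D.L :=
  D.hL.flow_mem Λ.hZ Λ.hζ (fun _ h => Λ.Z_tan h) hz σ

theorem lift {z : E × E} (hz : z ∈ D.L) (σ : ℝ) : Λ.H.Φ σ (z, Λ.u z) = (Λ.ζ σ z, Λ.u (Λ.ζ σ z)) := by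
  have hk := Λ.mem_hat hz
  -- the second component is the positive unit vector
  have hpm : ∀ σ, (Λ.H.Φ σ (z, Λ.u z)).2 = Λ.u (Λ.H.Φ σ (z, Λ.u z)).1 ∨
      (Λ.H.Φ σ (z, Λ.u z)).2 = -Λ.u (Λ.H.Φ σ (z, Λ.u z)).1 := by
    intro σ
    have hm := Λ.H.mem _ hk σ
    have hk2 := Λ.mem_hat hm.1
    rcases D.Hat_pm hk2 hm rfl with h | h
    · exact Or.inl (congrArg Prod.snd h)
    · exact Or.inr (congrArg Prod.snd h)
  set w : ℝ → ℝ := fun σ => (Λ.H.Φ σ (z, Λ.u z)).2.1 * (Λ.u (Λ.H.Φ σ (z, Λ.u z)).1).1 +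
    (Λ.H.Φ σ (z, Λ.u z)).2.2 * (Λ.u (Λ.H.Φ σ (z, Λ.u z)).1).2 with hw
  have hwc : Continuous w := by
    have h1 : Continuous fun σ : ℝ => Λ.H.Φ σ (z, Λ.u z) :=
      Λ.H.cont.comp (continuous_id.prodMk continuous_const)
    have h2 : Continuous fun σ : ℝ => Λ.u (Λ.H.Φ σ (z, Λ.u z)).1 :=
      Λ.hu.continuous.comp (continuous_fst.comp h1)
    exact ((continuous_fst.comp (continuous_snd.comp h1)).mul (continuous_fst.comp h2)).add
      ((continuous_snd.comp (continuous_snd.comp h1)).mul (continuous_snd.comp h2))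
  have hw0 : w 0 = 1 := by
    simp only [hw, Λ.H.zero]
    have := Λ.unit z hz
    linarith
  have hwne : ∀ σ, w σ ≠ 0 := by
    intro σ h0
    have hu := Λ.unit _ (Λ.H.mem _ hk σ).1
    simp only [hw] at h0
    rcases hpm σ with h | h
    · rw [h] at h0
      nlinarith
    · rw [h, Prod.fst_neg, Prod.snd_neg] at h0
      nlinarith
  have h1 : ∀ σ, (Λ.H.Φ σ (z, Λ.u z)).2 = Λ.u (Λ.H.Φ σ (z, Λ.u z)).1 := by
    intro σ
    rcases hpm σ with h | h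
    · exact h
    · exfalso
      have hu := Λ.unit _ (Λ.H.mem _ hk σ).1
      have hneg : w σ < 0 := by
        simp only [hw]
        rw [h, Prod.fst_neg, Prod.snd_neg]
        nlinarith
      have hiv := intermediate_value_uIcc (a := 0) (b := σ) hwc.continuousOn
      have hmem : (0 : ℝ) ∈ uIcc (w 0) (w σ) := by
        rw [hw0, uIcc_of_ge (by linarith)]
        exact ⟨hneg.le, zero_le_one⟩
      obtain ⟨t, -, ht⟩ := hiv hmem
      exact hwne t ht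
  have h2 : ∀ σ, (Λ.H.Φ σ (z, Λ.u z)).1 = Λ.ζ σ z := by
    have h3 := Λ.hζ.uniq (fun σ => (Λ.H.Φ σ (z, Λ.u z)).1) (fun t => by
      obtain ⟨v, hv, hd⟩ := Λ.H.deriv _ hk t
      have hm := Λ.H.mem _ hk t
      rw [h1 t] at hv
      have h4 := hv.unique hm.1 (Λ.lf _ hm.1)
      rw [← h4]
      exact hd)
    intro σ
    have h5 := h3 σ
    simp only [Λ.H.zero] at h5
    exact h5
  refine Prod.ext (h2 σ) ?_
  rw [h1, h2]

/-- the leafwise time -/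
noncomputable def T (σ : ℝ) (z : E × E) : ℝ := ∫ s in (0 : ℝ)..σ, (Λ.u (Λ.ζ s z)).1

theorem T_eq {z : E × E} (hz : z ∈ D.L) (σ : ℝ) : Λ.T σ z = Λ.H.T σ (z, Λ.u z) := by
  unfold T HatFlow.T
  refine intervalIntegral.integral_congr fun s _ => ?_
  simp only [Λ.lift hz]

theorem cont_ζ : Continuous fun x : ℝ × (E × E) => Λ.ζ x.1 x.2 := Λ.hζ.continuous

theorem cont_u : Continuous Λ.u := Λ.hu.continuous

theorem cont_T : Continuous fun x : ℝ × (E × E) => Λ.T x.1 x.2 := by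
  unfold T
  have h1 : Continuous (Function.uncurry fun (x : ℝ × (E × E)) (s : ℝ) =>
      (Λ.u (Λ.ζ s x.2)).1) := by
    have h2 : Continuous fun y : (ℝ × (E × E)) × ℝ => Λ.ζ y.2 y.1.2 :=
      Λ.cont_ζ.comp (continuous_snd.prodMk (continuous_snd.comp continuous_fst))
    exact continuous_fst.comp (Λ.cont_u.comp h2)
  exact intervalIntegral.continuous_parametric_intervalIntegral_of_continuous h1 continuous_fst

theorem T_zero (z : E × E) : Λ.T 0 z = 0 := by simp [T]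

theorem T_add {z : E × E} (hz : z ∈ D.L) (s t : ℝ) : Λ.T (s + t) z = Λ.T t z + Λ.T s (Λ.ζ t z) := by
  rw [Λ.T_eq hz, Λ.T_eq hz, Λ.T_eq (Λ.ζ_mem hz t), Λ.H.T_add, Λ.lift hz]

theorem hasDerivAt_T {z : E × E} (hz : z ∈ D.L) (σ : ℝ) :
    HasDerivAt (fun s => Λ.T s z) (Λ.u (Λ.ζ σ z)).1 σ := by
  have h1 := Λ.H.hasDerivAt_T σ (z, Λ.u z)
  have h2 : (fun s => Λ.T s z) = fun s => Λ.H.T s (z, Λ.u z) := funext fun s => Λ.T_eq hz s
  rw [h2]
  rwa [Λ.lift hz] at h1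

theorem hasDerivAt_h {z : E × E} (hz : z ∈ D.L) (σ : ℝ) :
    HasDerivAt (fun s => D.h (Λ.ζ s z)) (Λ.u (Λ.ζ σ z)).2 σ := by
  have h1 : HasFDerivAt D.h (fderiv ℝ D.h (Λ.ζ σ z)) (Λ.ζ σ z) :=
    (D.h_smooth.differentiable (by simp) _).hasFDerivAt
  have := h1.comp_hasDerivAt σ (Λ.hζ.deriv σ z)
  rwa [Λ.Z_h (Λ.ζ_mem hz σ)] at this

theorem base {z : E × E} (hz : z ∈ D.L) (σ : ℝ) : (Λ.ζ σ z).1 = D.φ (Λ.T σ z) z.1 := by
  have h1 := Λ.H.base (Λ.mem_hat hz) σ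
  rwa [Λ.lift hz, ← Λ.T_eq hz] at h1

theorem no_return {z : E × E} (hz : z ∈ D.L) {σ : ℝ} (hσ : σ ≠ 0) (hT : Λ.T σ z = 0) :
    D.h (Λ.ζ σ z) ≠ D.h z := by
  have h1 := Λ.H.no_return (Λ.mem_hat hz) hσ (by rw [← Λ.T_eq hz]; exact hT)
  rwa [Λ.lift hz] at h1

theorem drift : ∃ S > 0, ∀ z ∈ D.L, ∀ σ ≥ S, 0 < Λ.T σ z := by
  refine ⟨Λ.S₀, Λ.hS₀, fun z hz σ hσ => ?_⟩
  rw [Λ.T_eq hz]
  exact Λ.pos z hz σ hσ

/-- the leafwise time is unbounded in both directions -/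
theorem T_large {z : E × E} (hz : z ∈ D.L) (B : ℝ) :
    (∃ σ > 0, B < Λ.T σ z) ∧ ∃ σ < 0, Λ.T σ z < B := by
  obtain ⟨S, hS, hdrift⟩ := Λ.drift
  obtain ⟨c, hc, hcL⟩ := D.cL.exists_forall_le' (f := fun z => Λ.T S z) (a := 0)
    ((Λ.cont_T.comp (continuous_const.prodMk continuous_id)).continuousOn)
    (fun z hz => hdrift z hz S (le_refl S))
  have h1 : ∀ n : ℕ, ∀ z ∈ D.L, n * c ≤ Λ.T (n * S) z := by
    intro n
    induction n with
    | zero => intro z _; simp [Λ.T_zero]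
    | succ n ih =>
      intro z hz
      have h2 := Λ.T_add hz S (n * S)
      have h3 : ((n + 1 : ℕ) : ℝ) * S = S + n * S := by push_cast; ring
      rw [h3, h2]
      have h4 := ih z hz
      have h5 := hcL _ (Λ.ζ_mem hz (n * S))
      push_cast
      linarith
  obtain ⟨n, hn⟩ := exists_nat_gt (|B| / c)
  rw [div_lt_iff₀ hc] at hn
  have hn0 : 0 < (n : ℝ) := by
    by_contra hcon
    have : (n : ℝ) * c ≤ 0 := mul_nonpos_of_nonpos_of_nonneg (not_lt.1 hcon) hc.le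
    have := abs_nonneg B
    linarith
  refine ⟨⟨n * S, by positivity, ?_⟩, ⟨-(n * S), by
    have : 0 < (n : ℝ) * S := by positivity
    linarith, ?_⟩⟩
  · have := h1 n z hz
    have := le_abs_self B
    linarith
  · have h2 := Λ.T_add hz (n * S) (-(n * S))
    rw [add_neg_cancel, Λ.T_zero] at h2
    have h3 := h1 n _ (Λ.ζ_mem hz (-(n * S)))
    have := neg_abs_le B
    linarith

/-- Vectors of `L` whose base component is a multiple of `X` are multiples of the field. -/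
theorem leafwise {z : E × E} (hz : z ∈ D.L) {v : E × E} (hv : v ∈ Tn D.ρ z) {c : ℝ}
    (h : v.1 = c • D.X z.1) : ∃ l : ℝ, c = l * (Λ.u z).1 ∧ v = l • Λ.Z z := by
  have h1 : D.Lf z (c, fderiv ℝ D.h z v) v := ⟨hv, h, rfl⟩
  obtain ⟨l, hl, hl'⟩ := (Λ.lf z hz).prop hz h1 (Λ.unit z hz)
  exact ⟨l, congrArg Prod.fst hl, hl'⟩

end Leaf

end Base

end Vale.Agent.P220.R2.H57
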