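import Vale.Agent.P220.R2.H57.B.Dyn
import Vale.Agent.P220.R2.H481.Area2

/-!
There are no closed leafwise curves.
-/

open Set Filter Topology
open scoped ContDiff Manifold

set_option linter.unusedSectionVars false

namespace Vale.Agent.P220.R2.H57

variable {E : Type} [NormedAddCommGroup E] [InnerProductSpace ℝ E] [FiniteDimensional ℝ E]

namespace Base

variable (D : Base E)

theorem φ_mem {q : E} (hq : q ∈ D.Q) (t : ℝ) : D.φ t q ∈ D.Q :=
  D.hQ.flow_mem D.hX D.hφ D.tX hq t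

theorem Q_nonempty : D.Q.Nonempty := by
  obtain ⟨z, hz⟩ := D.ne
  exact ⟨z.1, D.sub z hz⟩

namespace HatFlow

variable {D} (H : D.HatFlow)

theorem cont_Φ (t : ℝ) : Continuous (H.Φ t) := H.cont.comp (continuous_const.prodMk continuous_id)

theorem cont_Tσ (t : ℝ) : Continuous (H.T t) := H.cont_T.comp (continuous_const.prodMk continuous_id)

theorem cont_Tk (k : (E × E) × (ℝ × ℝ)) : Continuous fun σ => H.T σ k :=
  H.cont_T.comp (continuous_id.prodMk continuous_const)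

/-- `k` lies on a closed leafwise curve -/
def Loop (k : (E × E) × (ℝ × ℝ)) : Prop := k ∈ D.Hat ∧ ∃ P > 0, H.Φ P k = k ∧ H.T P k = 0

variable {H}

theorem Loop.move {k : (E × E) × (ℝ × ℝ)} (h : H.Loop k) (s : ℝ) : H.Loop (H.Φ s k) := by
  obtain ⟨hk, P, hP, h1, h2⟩ := h
  refine ⟨H.mem k hk s, P, hP, ?_, ?_⟩
  · rw [← H.add, add_comm, H.add, h1]
  · have h3 := H.T_add P s k
    have h4 := H.T_add s P k
    rw [h1, h2, zero_add] at h4
    rw [add_comm, h4] at h3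
    linarith

theorem loop_of_eq {k : (E × E) × (ℝ × ℝ)} (hk : k ∈ D.Hat) {a b : ℝ} (hab : a < b)
    (h : H.Φ a k = H.Φ b k) (hT : H.T a k = H.T b k) : H.Loop k := by
  have h1 : H.Loop (H.Φ a k) := by
    refine ⟨H.mem k hk a, b - a, sub_pos.2 hab, ?_, ?_⟩
    · rw [← H.add, sub_add_cancel, h]
    · have := H.T_add (b - a) a k
      rw [sub_add_cancel] at this
      linarith
  have h2 := h1.move (-a)
  rwa [← H.add, neg_add_cancel, H.zero] at h2

variable (H)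

theorem loop_of_bounded {k : (E × E) × (ℝ × ℝ)} (hk : k ∈ D.Hat) {B : ℝ}
    (hB : ∀ σ, 0 ≤ σ → |H.T σ k| ≤ B) : H.Loop k := by
  have hcomp : IsCompact (D.Hat ×ˢ Icc (-B) B) := D.Hat_compact.prod isCompact_Icc
  obtain ⟨⟨k₀, t₀⟩, ⟨hk₀, -⟩, ψ, hψ, hlim⟩ := hcomp.tendsto_subseq
    (x := fun n : ℕ => (H.Φ n k, H.T n k))
    (fun n => ⟨H.mem k hk n, abs_le.1 (hB n (Nat.cast_nonneg n))⟩)
  obtain ⟨O, hO, ε, hε, hlu⟩ := H.local_unique hk₀ (show (0 : ℝ) < 1 / 2 by norm_num)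
  have h1 : Tendsto (fun n => H.Φ (ψ n) k) atTop (𝓝 k₀) := (continuous_fst.tendsto _).comp hlim
  have h2 : Tendsto (fun n => H.T (ψ n) k) atTop (𝓝 t₀) := (continuous_snd.tendsto _).comp hlim
  have h3 : ∀ᶠ n in atTop, H.Φ (ψ n) k ∈ O := h1.eventually_mem hO
  have h4 : ∀ᶠ n in atTop, |H.T (ψ n) k - t₀| < ε / 2 := by
    have := Metric.tendsto_nhds.1 h2 (ε / 2) (by positivity)
    simpa [Real.dist_eq] using this
  obtain ⟨n, hn⟩ := (h3.and h4).exists_forall_of_atTop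
  obtain ⟨ha1, ha2⟩ := hn n (le_refl n)
  obtain ⟨hb1, hb2⟩ := hn (n + 1) (Nat.le_succ n)
  have hlt : ψ n + 1 ≤ ψ (n + 1) := hψ (Nat.lt_succ_self n)
  have hlt' : (ψ n : ℝ) + 1 ≤ ψ (n + 1) := by exact_mod_cast hlt
  obtain ⟨σ, hσ, hσ1, hσ2⟩ := hlu _ ha1 _ hb1 (H.mem k hk _) (H.mem k hk _)
    (H.T (ψ (n + 1)) k - H.T (ψ n) k) (by
      have : H.T (ψ (n + 1)) k - H.T (ψ n) k = (H.T (ψ (n + 1)) k - t₀) - (H.T (ψ n) k - t₀) := by
        ring
      rw [this]
      exact (abs_sub _ _).trans_lt (by linarith)) (by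
      rw [H.base hk, H.base hk, ← D.hφ.add]
      congr 1
      ring)
  have hσ' := abs_lt.1 hσ
  refine loop_of_eq hk (a := σ + ψ n) (b := ψ (n + 1)) (by linarith) ?_ ?_
  · rw [H.add, hσ1]
  · rw [H.T_add, hσ2]
    ring

theorem hasDerivAt_f {k : (E × E) × (ℝ × ℝ)} (hk : k ∈ D.Hat) (σ : ℝ) :
    HasDerivAt (fun s => D.f (H.Φ s k).1) (D.h (H.Φ σ k).1 * (H.Φ σ k).2.1) σ := by
  obtain ⟨v, hv, hd⟩ := H.deriv k hk σ
  have h1 : HasFDerivAt D.f (fderiv ℝ D.f (H.Φ σ k).1) (H.Φ σ k).1 :=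
    (D.hf.differentiable (by simp) _).hasFDerivAt
  have h2 := h1.comp_hasDerivAt σ hd
  rw [D.exact _ (H.mem k hk σ).1 v hv.1, hv.2.1, inner_smul_right, mul_comm] at h2
  exact h2

theorem cont_b (k : (E × E) × (ℝ × ℝ)) : Continuous fun s => (H.Φ s k).2.2 := by
  have : Continuous fun s : ℝ => H.Φ s k := H.cont.comp (continuous_id.prodMk continuous_const)
  fun_prop

/-- the leafwise curve in the leaf plane -/
noncomputable def x (k : (E × E) × (ℝ × ℝ)) (σ : ℝ) : ℂ := ⟨H.T σ k, D.h (H.Φ σ k).1⟩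

/-- its velocity -/
noncomputable def x' (k : (E × E) × (ℝ × ℝ)) (σ : ℝ) : ℂ := ⟨(H.Φ σ k).2.1, (H.Φ σ k).2.2⟩

theorem hasDerivAt_x {k : (E × E) × (ℝ × ℝ)} (hk : k ∈ D.Hat) (σ : ℝ) :
    HasDerivAt (H.x k) (H.x' k σ) σ := by
  have h2 := (H.hasDerivAt_T σ k).prodMk (H.hasDerivAt_h hk σ)
  have h3 := (Complex.equivRealProdCLM.symm.toContinuousLinearMap).hasFDerivAt.comp_hasDerivAt σ h2
  have e1 : H.x k = (Complex.equivRealProdCLM.symm.toContinuousLinearMap) ∘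
        fun s => (H.T s k, D.h (H.Φ s k).1) := by
    funext s
    apply Complex.ext <;> simp [x]
  have e2 : H.x' k σ = Complex.equivRealProdCLM.symm.toContinuousLinearMap
      ((H.Φ σ k).2.1, (H.Φ σ k).2.2) := by
    apply Complex.ext <;> simp [x']
  rw [e1, e2]
  exact h3

theorem cont_x' (k : (E × E) × (ℝ × ℝ)) : Continuous (H.x' k) := by
  have e1 : H.x' k = (Complex.equivRealProdCLM.symm) ∘
        fun s => ((H.Φ s k).2.1, (H.Φ s k).2.2) := by
    funext s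
    apply Complex.ext <;> simp [x']
  rw [e1]
  exact Complex.equivRealProdCLM.symm.continuous.comp ((H.cont_a k).prodMk (H.cont_b k))

theorem x'_ne {k : (E × E) × (ℝ × ℝ)} (hk : k ∈ D.Hat) (σ : ℝ) : H.x' k σ ≠ 0 := by
  intro h
  have h1 : (H.Φ σ k).2.1 = 0 := congrArg Complex.re h
  have h2 : (H.Φ σ k).2.2 = 0 := congrArg Complex.im h
  have h3 := (H.mem k hk σ).2.2
  rw [h1, h2] at h3
  simp at h3

theorem x_eq {k : (E × E) × (ℝ × ℝ)} (hk : k ∈ D.Hat) {s t : ℝ} (h : H.x k s = H.x k t) :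
    H.Φ s k = H.Φ t k ∧ H.T s k = H.T t k := by
  have hT : H.T s k = H.T t k := congrArg Complex.re h
  have hh : D.h (H.Φ s k).1 = D.h (H.Φ t k).1 := congrArg Complex.im h
  have hs := H.mem k hk s
  have ht := H.mem k hk t
  have h1 : (H.Φ s k).1.1 = (H.Φ t k).1.1 := by rw [H.base hk, H.base hk, hT]
  have h2 : (H.Φ t k).1 = (H.Φ s k).1 := (D.h_inj hs.1 ht.1 h1 hh).symm
  refine ⟨?_, hT⟩
  rcases D.Hat_pm hs ht h2 with h3 | h3
  · exact h3.symm
  · exfalso
    refine H.no_turn hs (t - s) ?_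
    rw [← H.add, sub_add_cancel, h3]

theorem no_loop (k : (E × E) × (ℝ × ℝ)) : ¬ H.Loop k := by
  rintro ⟨hk, P, hP, h1, h2⟩
  -- the group of periods
  let G : AddSubgroup ℝ :=
    { carrier := {p | H.Φ p k = k ∧ H.T p k = 0}
      add_mem' := by
        rintro a b ⟨ha1, ha2⟩ ⟨hb1, hb2⟩
        refine ⟨?_, ?_⟩
        · rw [H.add, hb1, ha1]
        · rw [H.T_add, hb2, hb1, ha2, add_zero]
      zero_mem' := ⟨H.zero k, H.T_zero k⟩
      neg_mem' := by
        rintro a ⟨ha1, ha2⟩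
        have h3 : H.Φ (-a) k = k := by
          nth_rw 1 [← ha1]
          rw [← H.add, neg_add_cancel, H.zero]
        refine ⟨h3, ?_⟩
        have h4 := H.T_add a (-a) k
        rw [add_neg_cancel, H.T_zero, h3, ha2, add_zero] at h4
        exact h4.symm }
  have hGmem : ∀ p, p ∈ G ↔ H.Φ p k = k ∧ H.T p k = 0 := fun p => Iff.rfl
  have hGcl : IsClosed (G : Set ℝ) := by
    have h3 : Continuous fun s : ℝ => H.Φ s k := H.cont.comp (continuous_id.prodMk continuous_const)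
    exact (isClosed_eq h3 continuous_const).inter (isClosed_eq (H.cont_Tk k) continuous_const)
  have hGne : (G : Set ℝ) ≠ univ := by
    intro h
    have h3 : ∀ p, H.T p k = 0 := fun p => ((hGmem p).1 (by
      have : p ∈ (G : Set ℝ) := by rw [h]; trivial
      exact this)).2
    have h4 : ∀ p, H.Φ p k = k := fun p => ((hGmem p).1 (by
      have : p ∈ (G : Set ℝ) := by rw [h]; trivial
      exact this)).1
    have h5 : H.x k = fun _ => H.x k 0 := by
      funext p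
      simp only [x, h3, h4]
    have h6 := H.hasDerivAt_x hk 0
    rw [h5] at h6
    exact H.x'_ne hk 0 (h6.unique (hasDerivAt_const _ _))
  obtain ⟨P₀, hP₀⟩ : ∃ a : ℝ, G = AddSubgroup.zmultiples a := by
    rcases AddSubgroup.dense_or_cyclic G with h | ⟨a, ha⟩
    · exact absurd (h.closure_eq ▸ hGcl.closure_eq.symm) hGne
    · exact ⟨a, by rw [ha, AddSubgroup.zmultiples_eq_closure]⟩
  have hPG : P ∈ G := ⟨h1, h2⟩
  have hP₀ne : P₀ ≠ 0 := by
    rintro rfl
    rw [hP₀, AddSubgroup.mem_zmultiples_iff] at hPG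
    obtain ⟨j, hj⟩ := hPG
    simp at hj
    linarith
  have hscc : H481.SCC (H.x k) (H.x' k) |P₀| := by
    have hmem : |P₀| ∈ G := by
      have : P₀ ∈ G := by rw [hP₀]; exact AddSubgroup.mem_zmultiples P₀
      rcases abs_choice P₀ with h | h
      · rwa [h]
      · rw [h]; exact G.neg_mem this
    refine ⟨abs_pos.2 hP₀ne, H.hasDerivAt_x hk, H.cont_x' k, fun t => ?_, H.x'_ne hk, fun s t h => ?_⟩
    · simp only [x]
      rw [H.add, H.T_add, hmem.1, hmem.2, zero_add]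
    · obtain ⟨h3, h4⟩ := H.x_eq hk h
      have h5 : H.Φ (t - s) k = k := by
        have h6 : t - s = -s + t := by ring
        rw [h6, H.add, ← h3, ← H.add, neg_add_cancel, H.zero]
      have h6 : H.T (t - s) k = 0 := by
        have h7 := H.T_add s (t - s) k
        rw [add_sub_cancel, h5] at h7
        linarith
      have h7 : t - s ∈ G := ⟨h5, h6⟩
      rw [hP₀, AddSubgroup.mem_zmultiples_iff] at h7
      obtain ⟨j, hj⟩ := h7
      rcases abs_choice P₀ with h | h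
      · refine ⟨j, ?_⟩
        rw [h, ← hj]
        simp
      · refine ⟨-j, ?_⟩
        rw [h, ← hj]
        simp
  refine hscc.area_ne ?_
  have hmem : H.Φ |P₀| k = k := by
    have h3 := hscc.per 0
    rw [zero_add] at h3
    have := (H.x_eq hk h3).1
    rwa [H.zero] at this
  have h3 : ∀ t, (H.x k t).im * (H.x' k t).re = D.h (H.Φ t k).1 * (H.Φ t k).2.1 := fun t => rfl
  simp_rw [h3]
  rw [intervalIntegral.integral_eq_sub_of_hasDerivAt (fun t _ => H.hasDerivAt_f hk t)]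
  · rw [hmem, H.zero, sub_self]
  · have h4 : Continuous fun s : ℝ => H.Φ s k := H.cont.comp (continuous_id.prodMk continuous_const)
    exact ((D.h_smooth.continuous.comp (continuous_fst.comp h4)).mul (H.cont_a k)).intervalIntegrable _ _

theorem no_return {k : (E × E) × (ℝ × ℝ)} (hk : k ∈ D.Hat) {σ : ℝ} (hσ : σ ≠ 0)
    (hT : H.T σ k = 0) : D.h (H.Φ σ k).1 ≠ D.h k.1 := by
  intro hh
  have hmem := H.mem k hk σ
  have h1 : (H.Φ σ k).1.1 = k.1.1 := by rw [H.base hk, hT, D.hφ.zero]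
  have h2 : (H.Φ σ k).1 = k.1 := D.h_inj hmem.1 hk.1 h1 hh
  rcases D.Hat_pm hk hmem h2 with h3 | h3
  · rcases lt_or_gt_of_ne hσ with h | h
    · exact H.no_loop k (loop_of_eq hk h (by rw [h3, H.zero]) (by rw [hT, H.T_zero]))
    · exact H.no_loop k (loop_of_eq hk h (by rw [h3, H.zero]) (by rw [hT, H.T_zero]))
  · exact H.no_turn hk σ h3

theorem unbounded {k : (E × E) × (ℝ × ℝ)} (hk : k ∈ D.Hat) (B : ℝ) :
    ∃ σ, 0 ≤ σ ∧ B < |H.T σ k| := by
  by_contra hcon
  push Not at hcon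
  exact H.no_loop k (H.loop_of_bounded hk hcon)

end HatFlow

end Base

end Vale.Agent.P220.R2.H57
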