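import Vale.Agent.P220.R2.H57.B.Leaf
import Vale.Agent.P220.R2.H57.B.Drift
import Vale.Agent.P220.R2.H481.Surj

/-!
The oriented leafwise field exists; there is one leafwise curve in each leaf; `L` projects onto `Q`.
-/

open Set Filter Topology
open scoped ContDiff Manifold

set_option linter.unusedSectionVars false

namespace Vale.Agent.P220.R2.H57

variable {E : Type} [NormedAddCommGroup E] [InnerProductSpace ℝ E] [FiniteDimensional ℝ E]

namespace Base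

variable (D : Base E)

theorem exists_leaf : Nonempty D.Leaf := by
  classical
  obtain ⟨H⟩ := D.exists_hatFlow
  obtain ⟨B, hB, hnb⟩ := H.exists_nb
  obtain ⟨S₀, hS₀, hdrift⟩ := HatFlow.pos_drift hB hnb
  have hex : ∀ z : E × E, ∃ x : (ℝ × ℝ) × (E × E), z ∈ D.L →
      D.Lf z x.1 x.2 ∧ x.1.1 ^ 2 + x.1.2 ^ 2 = 1 ∧ H.Pos B (z, x.1) := by
    intro z
    by_cases hz : z ∈ D.L
    · obtain ⟨u, v, h1, h2⟩ := D.Lf_exists hz
      have hk : ((z, u) : (E × E) × (ℝ × ℝ)) ∈ D.Hat := ⟨hz, ⟨v, h1⟩, h2⟩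
      rcases HatFlow.pos_or_neg hB hnb hk with h | h
      · exact ⟨(u, v), fun _ => ⟨h1, h2, h⟩⟩
      · refine ⟨(-u, -v), fun _ => ⟨?_, ?_, h⟩⟩
        · simpa using h1.smul (-1)
        · simpa using h2
    · exact ⟨0, fun h => absurd h hz⟩
  choose x hx using hex
  obtain ⟨G, hG, hGx⟩ := glue D.hL.isClosed x (by
    intro z₀ hz₀
    obtain ⟨h1, h2, h3⟩ := hx z₀ hz₀
    obtain ⟨O, hO, u, v, hu, hv, hu0, hv0, hpos, hLf⟩ := D.local_section hz₀ h1 h2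
    have hs : ContDiffOn ℝ ∞ (fun z => (Real.sqrt ((u z).1 ^ 2 + (u z).2 ^ 2))⁻¹) O := by
      refine ContDiffOn.inv (ContDiffOn.sqrt (((contDiff_fst.comp_contDiffOn hu).pow 2).add
          ((contDiff_snd.comp_contDiffOn hu).pow 2)) fun z hz => (hpos z hz).ne') fun z hz => ?_
      exact (Real.sqrt_pos.2 (hpos z hz)).ne'
    set w : E × E → ℝ × ℝ := fun z => (Real.sqrt ((u z).1 ^ 2 + (u z).2 ^ 2))⁻¹ • u z with hw
    have hws : ContDiffOn ℝ ∞ w O := hs.smul hu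
    have hwv : ContDiffOn ℝ ∞ (fun z => (Real.sqrt ((u z).1 ^ 2 + (u z).2 ^ 2))⁻¹ • v z) O :=
      hs.smul hv
    have hw0 : w z₀ = (x z₀).1 := by
      simp only [hw]
      rw [hu0, h2]
      simp
    have hwc : ContinuousAt (fun z => ((z, w z) : (E × E) × (ℝ × ℝ))) z₀ :=
      continuousAt_id.prodMk (hws.continuousOn.continuousAt hO)
    have hev : ∀ᶠ z in 𝓝 z₀, H.Pos B (z, w z) := by
      refine hwc.eventually_mem (s := {k | H.Pos B k}) (HatFlow.pos_open.mem_nhds ?_)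
      change H.Pos B (z₀, w z₀)
      rw [hw0]
      exact h3
    refine ⟨O ∩ {z | H.Pos B (z, w z)}, inter_mem hO hev,
      fun z => (w z, (Real.sqrt ((u z).1 ^ 2 + (u z).2 ^ 2))⁻¹ • v z),
      (hws.prodMk hwv).mono inter_subset_left, ?_⟩
    rintro z ⟨hzO, hzp⟩ hz
    obtain ⟨h4, h5, h6⟩ := hx z hz
    have h7 := (hLf z hzO hz).smul (Real.sqrt ((u z).1 ^ 2 + (u z).2 ^ 2))⁻¹
    have h8 : (w z).1 ^ 2 + (w z).2 ^ 2 = 1 := by
      simp only [hw, Prod.smul_fst, Prod.smul_snd, smul_eq_mul, mul_pow]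
      rw [← mul_add, inv_pow, Real.sq_sqrt (hpos z hzO).le]
      exact inv_mul_cancel₀ (hpos z hzO).ne'
    have hk1 : ((z, w z) : (E × E) × (ℝ × ℝ)) ∈ D.Hat := ⟨hz, ⟨_, h7⟩, h8⟩
    have hk2 : ((z, (x z).1) : (E × E) × (ℝ × ℝ)) ∈ D.Hat := ⟨hz, ⟨_, h4⟩, h5⟩
    have h9 : w z = (x z).1 := by
      rcases D.Hat_pm hk2 hk1 rfl with h | h
      · exact congrArg Prod.snd h
      · exfalso
        have h10 : w z = -(x z).1 := congrArg Prod.snd h
        have hzp' : H.Pos B (z, w z) := hzp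
        rw [h10] at hzp'
        exact HatFlow.not_pos_neg hB hnb hk2 h6 hzp'
    refine Prod.ext h9 ?_
    have h11 : D.Lf z (x z).1 ((Real.sqrt ((u z).1 ^ 2 + (u z).2 ^ 2))⁻¹ • v z) := h9 ▸ h7
    exact h11.unique hz h4)
  obtain ⟨B, hB⟩ := D.cL.isBounded.exists_norm_le
  obtain ⟨χ, hχ, hχc, hχ1⟩ := exists_cutoff (F := E × E) B
  have hZs : ContDiff ℝ ∞ (fun z => χ z • (G z).2) := hχ.smul (contDiff_snd.comp hG)
  obtain ⟨ζ, hζ⟩ := exists_flow_compact hZs hχc.smul_right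
  refine ⟨⟨H, fun z => (G z).1, fun z => χ z • (G z).2, contDiff_fst.comp hG, hZs, ?_, ?_,
    S₀, hS₀, ?_, ζ, hζ⟩⟩
  · intro z hz
    rw [hχ1 z (hB z hz), one_smul, hGx z hz]
    exact (hx z hz).1
  · intro z hz
    rw [hGx z hz]
    exact (hx z hz).2.1
  · intro z hz σ hσ
    rw [hGx z hz]
    obtain ⟨h1, h2, h3⟩ := hx z hz
    exact hdrift _ ⟨hz, ⟨_, h1⟩, h2⟩ h3 σ hσ

namespace Leaf

variable {D} (Λ : D.Leaf)

/-- There is only one leafwise curve in each leaf. -/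
theorem one_leaf {z z' : E × E} (hz : z ∈ D.L) (hz' : z' ∈ D.L) {t : ℝ} (h : z'.1 = D.φ t z.1) :
    ∃ σ, Λ.ζ σ z = z' ∧ Λ.T σ z = t := by
  by_contra hcon
  push Not at hcon
  obtain ⟨ε, hε, hsep⟩ := Λ.H.exists_sep
  obtain ⟨F, hF⟩ := Λ.H.exists_act
  set τ : ℝ := 2 * |F| / ε + 1 with hτ
  have hτpos : 0 < τ := by positivity
  obtain ⟨b₁, -, hb₁⟩ := (Λ.T_large hz τ).1
  obtain ⟨b₂, -, hb₂⟩ := (Λ.T_large hz' (τ - t)).1
  obtain ⟨a₂, -, ha₂⟩ := (Λ.T_large hz' (-t)).2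
  have h3 := Λ.H.cross hε hsep hF (Λ.mem_hat hz) (Λ.mem_hat hz') (t₀ := t) h hτpos (a₁ := 0)
    (b₁ := b₁) (a₂ := a₂) (b₂ := b₂) (by rw [Λ.H.T_zero]) (by rw [← Λ.T_eq hz]; exact hb₁.le)
    (by rw [← Λ.T_eq hz']; linarith) (by rw [← Λ.T_eq hz']; linarith)
    (fun s _ r _ σ _ he hT => by
      rw [Λ.lift hz, Λ.lift hz'] at he
      rw [← Λ.T_eq hz, ← Λ.T_eq hz'] at hT
      simp only at he
      refine hcon (-r + (σ + s)) ?_ ?_
      · rw [Λ.hζ.add, he, Λ.hζ.neg_left]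
      · have h1 := Λ.T_add hz (-r) (σ + s)
        have h2 := Λ.T_add hz' (-r) r
        rw [neg_add_cancel, Λ.T_zero, ← he] at h2
        linarith)
  have h4 : ε * (τ - 0) = 2 * |F| + ε := by
    rw [hτ]
    field_simp
    ring
  rw [h4] at h3
  have := le_abs_self F
  linarith

/-- some point of each leafwise curve is transverse -/
theorem exists_regular {z : E × E} (hz : z ∈ D.L) : ∃ σ, (Λ.u (Λ.ζ σ z)).1 ≠ 0 := by
  by_contra hcon
  push Not at hcon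
  obtain ⟨S, hS, hdrift⟩ := Λ.drift
  have h1 := hdrift z hz S (le_refl S)
  have h2 : Λ.T S z = 0 := by
    unfold T
    simp [hcon]
  linarith

theorem transverse {z : E × E} (hz : z ∈ D.L) (hu : (Λ.u z).1 ≠ 0) :
    ∀ v ∈ Tn D.ρ z, v.1 = 0 → v = 0 := by
  intro v hv h
  obtain ⟨l, hl, hl'⟩ := Λ.leafwise hz hv (c := 0) (by rw [h, zero_smul])
  have h1 : l = 0 := by
    rcases mul_eq_zero.1 hl.symm with h2 | h2
    · exact h2
    · exact absurd h2 hu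
  rw [hl', h1, zero_smul]

end Leaf

/-- at a transverse point the projection of `L` is onto a neighbourhood -/
theorem open_at {D : Base E} {z : E × E} (hz : z ∈ D.L)
    (htr : ∀ v ∈ Tn D.ρ z, v.1 = 0 → v = 0) :
    ∃ O ∈ 𝓝 z.1, ∀ q ∈ O, q ∈ D.Q → ∃ y ∈ D.L, y.1 = q := by
  have : CompleteSpace E := FiniteDimensional.complete ℝ E
  set w := z.1 with hw
  have hwQ : w ∈ D.Q := D.sub z hz
  -- every tangent vector of `Q` is the projection of a tangent vector of `L`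
  have hsurj : ∀ a ∈ Tn D.r w, ∃ v ∈ Tn D.ρ z, v.1 = a := by
    let B : Tn D.ρ z →ₗ[ℝ] Tn D.r w :=
      { toFun := fun v => ⟨v.1.1, D.tan_fst hz v.2⟩
        map_add' := fun _ _ => rfl
        map_smul' := fun _ _ => rfl }
    have hB : Function.Injective B := by
      rw [injective_iff_map_eq_zero]
      intro v hv
      have h1 : v.1.1 = 0 := congrArg Subtype.val hv
      exact Subtype.ext (htr v.1 v.2 h1)
    have hfr : Module.finrank ℝ (Tn D.ρ z) = Module.finrank ℝ (Tn D.r w) := by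
      rw [D.dL z hz, D.dQ w hwQ]
    have hB2 := (LinearMap.injective_iff_surjective_of_finrank_eq_finrank hfr).1 hB
    intro a ha
    obtain ⟨v, hv⟩ := hB2 ⟨a, ha⟩
    exact ⟨v.1, v.2, congrArg Subtype.val hv⟩
  obtain ⟨O₁, hO₁, hinj⟩ := H481.isRet_inj D.hQ w
  -- the auxiliary map
  set A := fderiv ℝ D.r w with hA
  set F : (E × E) × E → E := fun p => (D.ρ p.1).1 + (p.2 - A p.2) with hF
  have hFs : ContDiff ℝ ∞ F :=
    (contDiff_fst.comp (D.hL.smooth.comp contDiff_fst)).add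
      (contDiff_snd.sub (A.contDiff.comp contDiff_snd))
  have hF0 : F (z, 0) = w := by
    simp only [hF, map_zero, sub_zero, add_zero]
    rw [D.hL.fix z hz]
  have hFd : HasFDerivAt F (((ContinuousLinearMap.fst ℝ E E).comp ((fderiv ℝ D.ρ z).comp
      (ContinuousLinearMap.fst ℝ (E × E) E))) + (ContinuousLinearMap.snd ℝ (E × E) E -
        A.comp (ContinuousLinearMap.snd ℝ (E × E) E))) (z, 0) := by
    have h1 : HasFDerivAt (fun p : (E × E) × E => D.ρ p.1) ((fderiv ℝ D.ρ z).comp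
        (ContinuousLinearMap.fst ℝ (E × E) E)) (z, 0) := by
      have h0 : HasFDerivAt D.ρ (fderiv ℝ D.ρ z) ((z, (0 : E)) : (E × E) × E).1 :=
        D.hL.hasFDerivAt z
      exact h0.comp (z, (0 : E)) hasFDerivAt_fst
    have h2 : HasFDerivAt (fun p : (E × E) × E => A p.2) (A.comp
        (ContinuousLinearMap.snd ℝ (E × E) E)) (z, 0) := by
      have h0 : HasFDerivAt A A ((z, (0 : E)) : (E × E) × E).2 := A.hasFDerivAt
      exact h0.comp (z, (0 : E)) hasFDerivAt_snd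
    have h3 : HasFDerivAt (fun p : (E × E) × E => (D.ρ p.1).1) ((ContinuousLinearMap.fst ℝ E E).comp
        ((fderiv ℝ D.ρ z).comp (ContinuousLinearMap.fst ℝ (E × E) E))) (z, 0) := by
      exact hasFDerivAt_fst.comp (z, (0 : E)) h1
    exact h3.add (hasFDerivAt_snd.sub h2)
  have hrange : (fderiv ℝ F (z, 0)).range = ⊤ := by
    rw [hFd.fderiv, LinearMap.range_eq_top]
    intro a
    obtain ⟨v, hv, hva⟩ := hsurj (A a) (D.hQ.fderiv_mem hwQ a)
    refine ⟨(v, a), ?_⟩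
    show (fderiv ℝ D.ρ z v).1 + (a - A a) = a
    rw [show fderiv ℝ D.ρ z v = v from hv, hva]
    abel
  have hmap := (hFs.contDiffAt.hasStrictFDerivAt (x := (z, 0)) (by simp)).map_nhds_eq_of_surj hrange
  rw [hF0] at hmap
  -- points near `(z, 0)`
  have hV : {p : (E × E) × E | p.1 ∈ D.UL ∧ (D.ρ p.1).1 ∈ O₁} ∈ 𝓝 ((z, 0) : (E × E) × E) := by
    refine inter_mem ?_ ?_
    · exact continuous_fst.continuousAt.preimage_mem_nhds (D.hL.isOpen.mem_nhds (D.hL.sub hz))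
    · have hc : Continuous fun p : (E × E) × E => (D.ρ p.1).1 :=
        continuous_fst.comp (D.hL.smooth.continuous.comp continuous_fst)
      refine hc.continuousAt.preimage_mem_nhds ?_
      show O₁ ∈ 𝓝 (D.ρ z).1
      rw [D.hL.fix z hz]
      exact hO₁
  have hO₂ : F '' {p : (E × E) × E | p.1 ∈ D.UL ∧ (D.ρ p.1).1 ∈ O₁} ∈ 𝓝 w := by
    rw [← hmap]
    exact image_mem_map hV
  refine ⟨_, inter_mem hO₁ hO₂, ?_⟩
  rintro q ⟨hq1, ⟨⟨y, x⟩, ⟨hy1, hy2⟩, hyq⟩⟩ hqQ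
  refine ⟨D.ρ y, D.hL.maps y hy1, ?_⟩
  refine hinj _ hy2 _ hq1 (D.sub _ (D.hL.maps y hy1)) hqQ ?_
  have h1 : (D.ρ y).1 + (x - A x) = q := hyq
  have h2 : (D.ρ y).1 - q = -(x - A x) := by
    rw [← h1]
    abel
  rw [h2, map_neg, map_sub, hA, D.hQ.fderiv_fderiv hwQ, sub_self, neg_zero]

theorem surj {D : Base E} (Λ : D.Leaf) : ∀ q ∈ D.Q, ∃ z ∈ D.L, z.1 = q := by
  set A : Set E := Prod.fst '' D.L with hA
  have hAcl : IsClosed A := (D.cL.image continuous_fst).isClosed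
  -- invariance
  have hinv : ∀ q ∈ A, ∀ t, D.φ t q ∈ A := by
    rintro _ ⟨z, hz, rfl⟩ t
    obtain ⟨σ₁, -, h1⟩ := (Λ.T_large hz t).1
    obtain ⟨σ₂, -, h2⟩ := (Λ.T_large hz t).2
    have hc : Continuous fun σ => Λ.T σ z := Λ.cont_T.comp (continuous_id.prodMk continuous_const)
    obtain ⟨σ, hσ⟩ := mem_range_of_exists_le_of_exists_ge hc ⟨σ₂, h2.le⟩ ⟨σ₁, h1.le⟩
    refine ⟨Λ.ζ σ z, Λ.ζ_mem hz σ, ?_⟩
    have h3 : Λ.T σ z = t := hσ
    rw [Λ.base hz, h3]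
  -- relative openness
  have hop : ∀ q ∈ A, ∃ O ∈ 𝓝 q, ∀ x ∈ O, x ∈ D.Q → x ∈ A := by
    intro q hq
    have hqQ : q ∈ D.Q := by
      obtain ⟨z, hz, rfl⟩ := hq
      exact D.sub z hz
    obtain ⟨z₁, hz₁, hz₁q⟩ := id hq
    obtain ⟨σ, hσ⟩ := Λ.exists_regular hz₁
    set t := Λ.T σ z₁ with ht
    set z := Λ.ζ σ z₁ with hzdef
    have hz : z ∈ D.L := Λ.ζ_mem hz₁ σ
    have hzt : z.1 = D.φ t q := by rw [hzdef, Λ.base hz₁, hz₁q]
    obtain ⟨O, hO, hO2⟩ := open_at hz (Λ.transverse hz hσ)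
    rw [hzt] at hO
    refine ⟨D.φ t ⁻¹' O, (D.hφ.smooth_map t).continuous.continuousAt.preimage_mem_nhds hO,
      fun x hx hxQ => ?_⟩
    obtain ⟨y, hy, hyx⟩ := hO2 _ hx (D.φ_mem hxQ t)
    have h1 := hinv _ ⟨y, hy, hyx⟩ (-t)
    rwa [D.hφ.neg_left] at h1
  have hBcl : IsClosed (D.Q \ A) := by
    refine isClosed_of_closure_subset fun x hx => ?_
    have hxQ : x ∈ D.Q := closure_minimal sdiff_subset D.hQ.isClosed hx
    refine ⟨hxQ, fun hxA => ?_⟩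
    obtain ⟨O, hO, hO2⟩ := hop x hxA
    obtain ⟨y, hyO, hyQ, hyA⟩ := mem_closure_iff_nhds.1 hx O hO
    exact hyA (hO2 y hyO hyQ)
  obtain ⟨z₀, hz₀⟩ := D.ne
  intro q hq
  by_contra hcon
  have hqB : q ∈ D.Q \ A := ⟨hq, fun ⟨z, hz, hzq⟩ => hcon ⟨z, hz, hzq⟩⟩
  obtain ⟨x, -, hx1, hx2⟩ := isPreconnected_closed_iff.1 D.connQ.isPreconnected A (D.Q \ A) hAcl
    hBcl (fun x hx => by
      by_cases h : x ∈ A
      · exact Or.inl h
      · exact Or.inr ⟨hx, h⟩) ⟨z₀.1, D.sub _ hz₀, z₀, hz₀, rfl⟩ ⟨q, hq, hqB⟩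
  exact hx2.2 hx1

end Base

end Vale.Agent.P220.R2.H57
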